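import Vale.Agent.P371.Der

/-!
The three trace inequalities behind the calibration, at a fixed value of the regulator.
-/

namespace Vale.Agent.P371

open Matrix MeasureTheory Set
open scoped ComplexOrder Matrix.Norms.L2Operator Topology

variable {n : Type} [Fintype n] [DecidableEq n]

/-- `-K ≤ X ≤ K` for the diagonal matrix `K`. -/
structure Box (κ : n → ℝ) (X : Matrix n n ℂ) : Prop where
  herm : X.IsHermitian
  up : (dg κ - X).PosSemidef
  lo : (dg κ + X).PosSemidef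

/-- The resolvent `(Ω - t X)⁻¹`. -/
noncomputable def res (ω : n → ℝ) (X : Matrix n n ℂ) (t : ℝ) : Matrix n n ℂ := (dg ω - t • X)⁻¹

variable {κ ω : n → ℝ} {X : Matrix n n ℂ}

omit [Fintype n] in
theorem Box.split (t : ℝ) : dg ω - t • X =
    dg (fun i => ω i - κ i) + (((1 + t) / 2) • (dg κ - X) + ((1 - t) / 2) • (dg κ + X)) := by
  rw [← dg_sub]; module

omit [Fintype n] in
theorem Box.psd_part (h : Box κ X) {t : ℝ} (ht : t ∈ Icc (-1 : ℝ) 1) :
    (((1 + t) / 2) • (dg κ - X) + ((1 - t) / 2) • (dg κ + X)).PosSemidef :=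
  (h.up.smul (by linarith [ht.1])).add (h.lo.smul (by linarith [ht.2]))

omit [Fintype n] in
theorem Box.pd (h : Box κ X) (hω : ∀ i, κ i < ω i) {t : ℝ} (ht : t ∈ Icc (-1 : ℝ) 1) :
    (dg ω - t • X).PosDef := by
  rw [Box.split (κ := κ)]
  exact (dg_pd.2 fun i => sub_pos.2 (hω i)).add_posSemidef (h.psd_part ht)

theorem Box.res_herm (h : Box κ X) (hω : ∀ i, κ i < ω i) {t : ℝ} (ht : t ∈ Icc (-1 : ℝ) 1) :
    (res ω X t)ᴴ = res ω X t := (h.pd hω ht).inv.1

theorem Box.mul_res (h : Box κ X) (hω : ∀ i, κ i < ω i) {t : ℝ} (ht : t ∈ Icc (-1 : ℝ) 1) :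
    (dg ω - t • X) * res ω X t = 1 :=
  Matrix.mul_nonsing_inv _ ((Matrix.isUnit_iff_isUnit_det _).1 (h.pd hω ht).isUnit)

theorem Box.res_mul (h : Box κ X) (hω : ∀ i, κ i < ω i) {t : ℝ} (ht : t ∈ Icc (-1 : ℝ) 1) :
    res ω X t * (dg ω - t • X) = 1 :=
  Matrix.nonsing_inv_mul _ ((Matrix.isUnit_iff_isUnit_det _).1 (h.pd hω ht).isUnit)

theorem Box.om_res (h : Box κ X) (hω : ∀ i, κ i < ω i) {t : ℝ} (ht : t ∈ Icc (-1 : ℝ) 1) :
    dg ω * res ω X t = 1 + t • (X * res ω X t) := by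
  rw [← h.mul_res hω ht, Matrix.sub_mul, Matrix.smul_mul]; abel

theorem Box.hasDerivAt_res (h : Box κ X) (hω : ∀ i, κ i < ω i) {t : ℝ}
    (ht : t ∈ Icc (-1 : ℝ) 1) : HasDerivAt (res ω X) (res ω X t * X * res ω X t) t := by
  have h1 : HasDerivAt (fun s : ℝ => dg ω - s • X) (-X) t := by
    simpa using ((hasDerivAt_id t).smul_const X).const_sub (dg ω)
  refine (hasDerivAt_minv h1 (h.pd hω ht).isUnit).congr_deriv ?_
  simp [res]

theorem Box.continuousOn_res (h : Box κ X) (hω : ∀ i, κ i < ω i) :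
    ContinuousOn (res ω X) (uIcc (-1 : ℝ) 1) := by
  rw [uIcc_of_le (by norm_num)]
  exact fun t ht => (h.hasDerivAt_res hω ht).continuousAt.continuousWithinAt

omit [DecidableEq n] in
@[fun_prop]
theorem continuousOn_rtr {Y : Type} [TopologicalSpace Y] {A : Y → Matrix n n ℂ} {s : Set Y}
    (h : ContinuousOn A s) : ContinuousOn (fun y => rtr (A y)) s :=
  (continuous_rtr continuous_id).comp_continuousOn h

theorem dg_inv_mul (hω : ∀ i, 0 < ω i) : dg (fun i => (ω i)⁻¹) * dg ω = 1 := by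
  rw [dg_mul, ← dg_one]; congr 1; ext i; exact inv_mul_cancel₀ (hω i).ne'

theorem calib2 (h : Box κ X) (hω : ∀ i, κ i < ω i) (hω0 : ∀ i, 0 < ω i) :
    ∫ t in (-1 : ℝ)..1, rtr (res ω X t * res ω X t)
      ≤ rtr (dg (fun i => (ω i)⁻¹) * (res ω X 1 + res ω X (-1))) := by
  have hc := h.continuousOn_res hω
  have hd : ∀ t ∈ uIcc (-1 : ℝ) 1, HasDerivAt
      (fun t => rtr (dg (fun i => (ω i)⁻¹) * (t • res ω X t)))
      (rtr (dg (fun i => (ω i)⁻¹) * (res ω X t * dg ω * res ω X t))) t := by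
    intro t ht
    rw [uIcc_of_le (by norm_num)] at ht
    refine hasDerivAt_rtr (HasDerivAt.const_mul _ ?_)
    refine ((hasDerivAt_id t).smul (h.hasDerivAt_res hω ht)).congr_deriv ?_
    rw [Matrix.mul_assoc _ (dg ω), h.om_res hω ht]
    simp [Matrix.mul_add, Matrix.mul_assoc, add_comm]
  have hi : IntervalIntegrable
      (fun t => rtr (dg (fun i => (ω i)⁻¹) * (res ω X t * dg ω * res ω X t))) volume (-1) 1 :=
    ContinuousOn.intervalIntegrable (by fun_prop)
  have h1 := intervalIntegral.integral_eq_sub_of_hasDerivAt hd hi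
  have h2 : rtr (dg (fun i => (ω i)⁻¹) * (res ω X 1 + res ω X (-1)))
      = ∫ t in (-1 : ℝ)..1, rtr (dg (fun i => (ω i)⁻¹) * (res ω X t * dg ω * res ω X t)) := by
    rw [h1, Matrix.mul_add, rtr_add]; simp [rtr_neg]
  rw [h2]
  refine intervalIntegral.integral_mono_on (by norm_num)
    (ContinuousOn.intervalIntegrable (by fun_prop)) hi fun t ht => ?_
  have hs := rtr_sq_le (dg (fun i => (√(ω i))⁻¹) * res ω X t * dg (fun i => √(ω i)))
  have e1 : dg (fun i => √(ω i)) * dg (fun i => (√(ω i))⁻¹) = 1 := by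
    rw [dg_mul, ← dg_one]; congr 1; ext i
    exact mul_inv_cancel₀ (Real.sqrt_pos.2 (hω0 i)).ne'
  have e2 : dg (fun i => √(ω i)) * dg (fun i => √(ω i)) = dg ω := by
    rw [dg_mul]; congr 1; ext i; exact Real.mul_self_sqrt (hω0 i).le
  have e3 : dg (fun i => (√(ω i))⁻¹) * dg (fun i => (√(ω i))⁻¹) = dg (fun i => (ω i)⁻¹) := by
    rw [dg_mul]; congr 1; ext i; rw [← mul_inv, Real.mul_self_sqrt (hω0 i).le]
  rw [conjTranspose_mul, conjTranspose_mul, dg_herm, dg_herm, h.res_herm hω ht] at hs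
  generalize res ω X t = R at hs ⊢
  generalize dg (fun i => (√(ω i))⁻¹) = S at *
  generalize dg (fun i => √(ω i)) = S' at *
  have e4 : rtr (S * R * S' * (S * R * S')) = rtr (R * R) := by
    rw [show S * R * S' * (S * R * S') = S * (R * (S' * S) * R) * S' by
      simp only [Matrix.mul_assoc], rtr_comm, ← Matrix.mul_assoc, e1]; simp
  have e5 : rtr (S * R * S' * (S' * (R * S))) = rtr (dg (fun i => (ω i)⁻¹) * (R * dg ω * R)) := by
    rw [show S * R * S' * (S' * (R * S)) = S * (R * (S' * S') * R) * S by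
      simp only [Matrix.mul_assoc], rtr_comm, ← Matrix.mul_assoc, e2, e3]
  linarith

theorem calib3 (h : Box κ X) (hω : ∀ i, κ i < ω i) :
    ∫ t in (-1 : ℝ)..1, rtr (res ω X t * res ω X t * (dg ω * dg ω - X * X))
      ≤ 2 * Fintype.card n := by
  have hc := h.continuousOn_res hω
  have hd : ∀ t ∈ uIcc (-1 : ℝ) 1, HasDerivAt
      (fun t => Fintype.card n * t - (1 - t * t) * rtr (X * res ω X t))
      (Fintype.card n + 2 * t * rtr (X * res ω X t)
        - (1 - t * t) * rtr (X * res ω X t * (X * res ω X t))) t := by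
    intro t ht
    rw [uIcc_of_le (by norm_num)] at ht
    have h1 := hasDerivAt_rtr ((h.hasDerivAt_res hω ht).const_mul X)
    have h2 := (((hasDerivAt_id t).mul (hasDerivAt_id t)).const_sub 1).mul h1
    refine (((hasDerivAt_id t).const_mul (Fintype.card n : ℝ)).sub h2).congr_deriv ?_
    simp only [Matrix.mul_assoc, id, Pi.mul_apply]; ring
  have hi : IntervalIntegrable (fun t => Fintype.card n + 2 * t * rtr (X * res ω X t)
        - (1 - t * t) * rtr (X * res ω X t * (X * res ω X t))) volume (-1) 1 :=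
    ContinuousOn.intervalIntegrable (by fun_prop)
  have h1 := intervalIntegral.integral_eq_sub_of_hasDerivAt hd hi
  refine le_trans (intervalIntegral.integral_mono_on (by norm_num)
    (ContinuousOn.intervalIntegrable (by fun_prop)) hi fun t ht => ?_) (by rw [h1]; linarith)
  have hs := rtr_sq_le (X * res ω X t)
  have e1 := h.om_res hω ht
  have e2 := h.res_herm hω ht
  have e3 : rtr (res ω X t * res ω X t * (dg ω * dg ω - X * X))
      = rtr ((dg ω * res ω X t) * (dg ω * res ω X t)ᴴ)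
        - rtr ((X * res ω X t) * (X * res ω X t)ᴴ) := by
    rw [conjTranspose_mul, conjTranspose_mul, dg_herm, e2, h.herm.eq, Matrix.mul_sub, rtr_sub,
      ← Matrix.mul_assoc _ (dg ω), ← Matrix.mul_assoc _ X, rtr_comm _ (dg ω), rtr_comm _ X]
    simp only [Matrix.mul_assoc]
  rw [e3, e1]
  generalize X * res ω X t = P at hs ⊢
  have e4 : rtr ((1 + t • P) * (1 + t • P)ᴴ)
      = Fintype.card n + 2 * t * rtr P + t * t * rtr (P * Pᴴ) := by
    simp only [conjTranspose_add, conjTranspose_one, conjTranspose_smul, star_trivial,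
      Matrix.add_mul, Matrix.mul_add, Matrix.one_mul, Matrix.mul_one, Matrix.smul_mul,
      Matrix.mul_smul, rtr_add, rtr_smul, rtr_one, rtr_conjTranspose]
    ring
  have e5 : 0 ≤ 1 - t * t := by nlinarith [ht.1, ht.2]
  rw [e4]
  nlinarith [mul_le_mul_of_nonneg_left hs e5]

theorem simul (hX : X.IsHermitian) (hω0 : ∀ i, 0 < ω i) :
    ∃ (T : Matrix n n ℂ) (y : n → ℝ), IsUnit T ∧ Tᴴ * dg ω * T = 1 ∧ Tᴴ * X * T = dg y ∧
      ∑ i, y i ^ 2 = rtr (X * dg (fun i => (ω i)⁻¹) * X * dg (fun i => (ω i)⁻¹)) := by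
  have e3 : dg (fun i => (√(ω i))⁻¹) * dg (fun i => (√(ω i))⁻¹) = dg (fun i => (ω i)⁻¹) := by
    rw [dg_mul]; congr 1; ext i; rw [← mul_inv, Real.mul_self_sqrt (hω0 i).le]
  have e4 : dg (fun i => (√(ω i))⁻¹) * dg ω * dg (fun i => (√(ω i))⁻¹) = 1 := by
    rw [dg_mul, dg_mul, ← dg_one]; congr 1; ext i
    have := Real.mul_self_sqrt (hω0 i).le
    have h2 := (Real.sqrt_pos.2 (hω0 i)).ne'
    field_simp; nlinarith
  have e5 : IsUnit (dg (fun i => (√(ω i))⁻¹)) :=
    (dg_pd.2 fun i => inv_pos.2 (Real.sqrt_pos.2 (hω0 i))).isUnit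
  have e6 := dg_herm (fun i => (√(ω i))⁻¹)
  generalize dg (fun i => (√(ω i))⁻¹) = S at *
  have hY : (S * X * S).IsHermitian := by
    rw [IsHermitian, conjTranspose_mul, conjTranspose_mul, e6, hX.eq, Matrix.mul_assoc]
  obtain ⟨U, y, hy⟩ := exists_dec hY
  refine ⟨S * U, y, e5.mul hy.unit, ?_, ?_, ?_⟩
  · rw [conjTranspose_mul, e6, show Uᴴ * S * dg ω * (S * U) = Uᴴ * (S * dg ω * S) * U by
      simp only [Matrix.mul_assoc], e4, Matrix.mul_one, hy.l]
  · rw [conjTranspose_mul, e6, ← hy.conj_eq]; simp only [Matrix.mul_assoc]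
  · have := (hy.mul hy).rtr_eq
    simp only [sq]
    rw [← this, ← e3, show S * X * S * (S * X * S) = S * (X * (S * S) * X * S) by
      simp only [Matrix.mul_assoc], rtr_comm]
    simp only [Matrix.mul_assoc]

theorem ld_conj {T A : Matrix n n ℂ} (hT : IsUnit T) (hA : IsUnit A) :
    ld (Tᴴ * A * T) = 2 * ld T + ld A := by
  have hT' : IsUnit Tᴴ := hT.star
  rw [ld_mul (hT'.mul hA) hT, ld_mul hT' hA, ld_conjTranspose]; ring

theorem integral_inv_sq {y : ℝ} (hy : ∀ t ∈ Icc (-1 : ℝ) 1, 0 < 1 - t * y) :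
    ∫ t in (-1 : ℝ)..1, (1 - y * y) * ((1 - t * y)⁻¹) ^ 2 = 2 := by
  have h1 := hy 1 ⟨by norm_num, le_rfl⟩
  have h2 := hy (-1) ⟨le_rfl, by norm_num⟩
  have hd : ∀ t ∈ uIcc (-1 : ℝ) 1, HasDerivAt (fun t => (1 - y * y) * (t * (1 - t * y)⁻¹))
      ((1 - y * y) * ((1 - t * y)⁻¹) ^ 2) t := by
    intro t ht
    rw [uIcc_of_le (by norm_num)] at ht
    have h3 := (hy t ht).ne'
    refine HasDerivAt.const_mul _ ?_
    refine ((hasDerivAt_id t).mul
      ((((hasDerivAt_id t).mul_const y).const_sub 1).inv h3)).congr_deriv ?_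
    simp only [id, Pi.inv_apply]; field_simp; ring
  rw [intervalIntegral.integral_eq_sub_of_hasDerivAt hd]
  · have h4 : 1 - y ≠ 0 := by linarith
    have h5 : 1 + y ≠ 0 := by linarith
    simp only [one_mul, neg_mul, sub_neg_eq_add]; field_simp; ring
  · refine ContinuousOn.intervalIntegrable (ContinuousOn.mul continuousOn_const
      (ContinuousOn.pow (ContinuousOn.inv₀ (by fun_prop) fun t ht => ?_) 2))
    rw [uIcc_of_le (by norm_num)] at ht
    exact (hy t ht).ne'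

theorem rtr_dg_mul (d : n → ℝ) (A : Matrix n n ℂ) : rtr (dg d * A) = ∑ i, d i * (A i i).re := by
  simp [rtr_eq_sum, dg, diagonal_mul]

theorem calib1 (h : Box κ X) (hω : ∀ i, κ i < ω i) (hω0 : ∀ i, 0 < ω i) {J : Matrix n n ℂ}
    (hJ : J.PosDef) :
    2 * (Fintype.card n + ld J - (ld (dg ω + X) + ld (dg ω - X)))
      ≤ ∫ t in (-1 : ℝ)..1, rtr (res ω X t * res ω X t * J) := by
  obtain ⟨T, y, hT, e1, e2, -⟩ := simul h.herm hω0
  have e3 : ∀ t : ℝ, Tᴴ * (dg ω - t • X) * T = dg (fun i => 1 - t * y i) := fun t => by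
    rw [Matrix.mul_sub, Matrix.sub_mul, e1, Matrix.mul_smul, Matrix.smul_mul, e2, dg_smul,
      ← dg_one, dg_sub]
  have hp : ∀ t ∈ Icc (-1 : ℝ) 1, ∀ i, 0 < 1 - t * y i := fun t ht => by
    rw [← dg_pd, ← e3]
    exact hT.posDef_star_left_conjugate_iff.2 (h.pd hω ht)
  have hy : ∀ i, 0 < 1 - y i * y i := fun i => by
    have h1 := hp 1 ⟨by norm_num, le_rfl⟩ i
    have h2 := hp (-1) ⟨le_rfl, by norm_num⟩ i
    nlinarith
  have e4 : ∀ t ∈ Icc (-1 : ℝ) 1, res ω X t = T * dg (fun i => (1 - t * y i)⁻¹) * Tᴴ := by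
    intro t ht
    refine Matrix.inv_eq_right_inv ?_
    rw [← Matrix.mul_assoc, mul_eq_one_comm, ← Matrix.mul_assoc, ← Matrix.mul_assoc, e3, dg_mul,
      ← dg_one]
    congr 1; ext i; exact mul_inv_cancel₀ (hp t ht i).ne'
  have hL : ld (dg ω + X) + ld (dg ω - X) = ∑ i, Real.log (1 - y i * y i) - 4 * ld T := by
    have h1 := ld_conj hT (h.pd hω (t := 1) ⟨by norm_num, le_rfl⟩).isUnit
    have h2 := ld_conj hT (h.pd hω (t := -1) ⟨le_rfl, by norm_num⟩).isUnit
    rw [e3, (Dec.ofDg _).ld_eq (hp _ (by norm_num))] at h1 h2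
    simp only [one_smul, neg_smul, sub_neg_eq_add, one_mul, neg_mul] at h1 h2
    have : ∑ i, Real.log (1 - y i * y i) = ∑ i, Real.log (1 - y i) + ∑ i, Real.log (1 + y i) := by
      rw [← Finset.sum_add_distrib]
      refine Finset.sum_congr rfl fun i _ => ?_
      have h1 := hp 1 ⟨by norm_num, le_rfl⟩ i
      have h2 := hp (-1) ⟨le_rfl, by norm_num⟩ i
      rw [← Real.log_mul (by linarith) (by linarith)]; congr 1; ring
    linarith
  set Δ := dg (fun i => (√(1 - y i * y i))⁻¹) with hΔ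
  have hΔp : Δ.PosDef := dg_pd.2 fun i => inv_pos.2 (Real.sqrt_pos.2 (hy i))
  have hM : ((T * Δ)ᴴ * 1 * (T * Δ)).PosDef :=
    (hT.mul hΔp.isUnit).posDef_star_left_conjugate_iff.2 PosDef.one
  have hQ : (Tᴴ * J * T).PosDef := hT.posDef_star_left_conjugate_iff.2 hJ
  have lM : ld ((T * Δ)ᴴ * 1 * (T * Δ)) = 2 * ld T - ∑ i, Real.log (1 - y i * y i) := by
    rw [ld_conj (hT.mul hΔp.isUnit) isUnit_one, ld_mul hT hΔp.isUnit,
      (Dec.ofDg _).ld_eq fun i => inv_pos.2 (Real.sqrt_pos.2 (hy i))]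
    simp only [Real.log_inv, Finset.sum_neg_distrib, Real.log_sqrt (hy _).le, ← Finset.sum_div]
    simp [ld]; ring
  have lQ := ld_conj hT hJ.isUnit
  obtain ⟨V, a, ha⟩ := exists_dec hM.1
  obtain ⟨V', b, hb⟩ := exists_dec hQ.1
  have ha0 := ha.pd_iff.1 hM
  have hb0 := hb.pd_iff.1 hQ
  have ha2 := ha.other (fun i => 1 + Real.log (a i))
  have hb2 := hb.other (fun i => Real.log (b i))
  set A₂ := V * dg (fun i => 1 + Real.log (a i)) * Vᴴ
  set B₂ := V' * dg (fun i => Real.log (b i)) * V'ᴴ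
  have hw : ∑ i, ((A₂ i i).re + (B₂ i i).re)
      = Fintype.card n + ld J - (ld (dg ω + X) + ld (dg ω - X)) := by
    rw [Finset.sum_add_distrib, ← rtr_eq_sum, ← rtr_eq_sum, ha2.rtr_eq, hb2.rtr_eq,
      Finset.sum_add_distrib, ← ha.ld_eq ha0, ← hb.ld_eq hb0, lM, lQ, hL]
    simp; ring
  have hc := h.continuousOn_res hω
  have hint : ∀ i, IntervalIntegrable
      (fun t => (1 - y i * y i) * ((1 - t * y i)⁻¹) ^ 2 * ((A₂ i i).re + (B₂ i i).re))
      volume (-1) 1 := fun i => by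
    refine ContinuousOn.intervalIntegrable (ContinuousOn.mul (ContinuousOn.mul continuousOn_const
      (ContinuousOn.pow (ContinuousOn.inv₀ (by fun_prop) fun t ht => ?_) 2)) continuousOn_const)
    rw [uIcc_of_le (by norm_num)] at ht
    exact (hp t ht i).ne'
  have hI : ∫ t in (-1 : ℝ)..1, ∑ i,
      (1 - y i * y i) * ((1 - t * y i)⁻¹) ^ 2 * ((A₂ i i).re + (B₂ i i).re)
      = 2 * (Fintype.card n + ld J - (ld (dg ω + X) + ld (dg ω - X))) := by
    rw [intervalIntegral.integral_finset_sum fun i _ => hint i, ← hw, Finset.mul_sum]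
    refine Finset.sum_congr rfl fun i _ => ?_
    rw [intervalIntegral.integral_mul_const, integral_inv_sq fun t ht => hp t ht i]
  rw [← hI]
  refine intervalIntegral.integral_mono_on (by norm_num) ?_
    (ContinuousOn.intervalIntegrable (by fun_prop)) fun t ht => ?_
  · simpa [Finset.sum_fn] using IntervalIntegrable.sum Finset.univ fun i _ => hint i
  set B := dg (fun i => √(1 - y i * y i) * (1 - t * y i)⁻¹) with hB
  have key := ha.le_ds ha2 hb hb2 B fun i l => by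
    have := Real.log_le_sub_one_of_pos (mul_pos (ha0 i) (hb0 l))
    rw [Real.log_mul (ha0 i).ne' (hb0 l).ne'] at this
    linarith
  have eB : Bᴴ = B := dg_herm _
  have eBB : B * B = dg (fun i => (1 - y i * y i) * ((1 - t * y i)⁻¹) ^ 2) := by
    rw [hB, dg_mul]; congr 1; ext i
    have := Real.mul_self_sqrt (hy i).le
    linear_combination ((1 - t * y i)⁻¹) ^ 2 * this
  have eD : Δ * B = dg (fun i => (1 - t * y i)⁻¹) := by
    rw [hΔ, hB, dg_mul]; congr 1; ext i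
    rw [← mul_assoc, inv_mul_cancel₀ (Real.sqrt_pos.2 (hy i)).ne', one_mul]
  have eD' : B * Δ = dg (fun i => (1 - t * y i)⁻¹) := by
    rw [← eD, hΔ, hB, dg_mul, dg_mul]; simp only [mul_comm]
  rw [eB, rtr_comm _ B, ← Matrix.mul_assoc, eBB, rtr_dg_mul, rtr_dg_mul,
    ← Finset.sum_add_distrib] at key
  refine le_trans (le_of_eq ?_) (key.trans (le_of_eq ?_))
  · simp only [mul_add]
  · rw [e4 t ht, conjTranspose_mul, hΔp.1.eq, Matrix.mul_one,
      show B * (Δ * Tᴴ * (T * Δ)) * B * (Tᴴ * J * T)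
        = (B * Δ) * Tᴴ * T * (Δ * B) * Tᴴ * J * T by simp only [Matrix.mul_assoc], eD, eD',
      rtr_comm _ T]
    simp only [Matrix.mul_assoc]

theorem ld_upper (h : Box κ X) (hω : ∀ i, κ i < ω i) (hω0 : ∀ i, 0 < ω i) :
    ld (dg ω + X) + ld (dg ω - X) ≤ 2 * ∑ i, Real.log (ω i)
      - rtr (X * dg (fun i => (ω i)⁻¹) * X * dg (fun i => (ω i)⁻¹)) := by
  obtain ⟨T, y, hT, e1, e2, e5⟩ := simul h.herm hω0
  have e3 : ∀ t : ℝ, Tᴴ * (dg ω - t • X) * T = dg (fun i => 1 - t * y i) := fun t => by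
    rw [Matrix.mul_sub, Matrix.sub_mul, e1, Matrix.mul_smul, Matrix.smul_mul, e2, dg_smul,
      ← dg_one, dg_sub]
  have hp : ∀ t ∈ Icc (-1 : ℝ) 1, ∀ i, 0 < 1 - t * y i := fun t ht => by
    rw [← dg_pd, ← e3]
    exact hT.posDef_star_left_conjugate_iff.2 (h.pd hω ht)
  have h0 := ld_conj hT (dg_pd.2 hω0).isUnit
  have h1 := ld_conj hT (h.pd hω (t := 1) ⟨by norm_num, le_rfl⟩).isUnit
  have h2 := ld_conj hT (h.pd hω (t := -1) ⟨le_rfl, by norm_num⟩).isUnit
  rw [e3, (Dec.ofDg _).ld_eq (hp _ (by norm_num))] at h1 h2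
  rw [e1, (Dec.ofDg _).ld_eq hω0] at h0
  simp only [one_smul, neg_smul, sub_neg_eq_add, one_mul, neg_mul] at h1 h2
  have h3 : ld (1 : Matrix n n ℂ) = 0 := by simp [ld]
  have : ∑ i, Real.log (1 - y i) + ∑ i, Real.log (1 + y i) ≤ -∑ i, y i ^ 2 := by
    rw [← Finset.sum_add_distrib, ← Finset.sum_neg_distrib]
    refine Finset.sum_le_sum fun i _ => ?_
    have h1 := hp 1 ⟨by norm_num, le_rfl⟩ i
    have h2 := hp (-1) ⟨le_rfl, by norm_num⟩ i
    rw [← Real.log_mul (by linarith) (by linarith)]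
    have := Real.log_le_sub_one_of_pos (show 0 < (1 - y i) * (1 + y i) by nlinarith)
    linarith
  linarith

theorem ld_lower {A : Matrix n n ℂ} (hA : A.IsHermitian) {η : ℝ} (hη : 0 < η)
    (h : (A - η • (1 : Matrix n n ℂ)).PosSemidef) : Fintype.card n * Real.log η ≤ ld A := by
  obtain ⟨U, a, ha⟩ := exists_dec hA
  have h1 := (ha.sub (ha.const η)).psd_iff.1 h
  rw [ha.ld_eq fun i => by linarith [h1 i]]
  have : ∑ _i : n, Real.log η ≤ ∑ i, Real.log (a i) :=
    Finset.sum_le_sum fun i _ => Real.log_le_log hη (by linarith [h1 i])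
  simpa using this

end Vale.Agent.P371
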