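import Mathlib

/-!
Scalar integrals used by the calibration.
-/

namespace Vale.Agent.P371

open MeasureTheory Set Real Filter
open scoped Topology

theorem contOn_param {X : Type} [TopologicalSpace X] {s : Set X} {f : X → ℝ → ℝ} {c d : ℝ}
    (hcd : c ≤ d) (h : ContinuousOn (Function.uncurry f) (s ×ˢ Icc c d)) :
    ContinuousOn (fun x => ∫ y in c..d, f x y) s := by
  rw [continuousOn_iff_continuous_restrict]
  have h1 : Continuous (Function.uncurry fun (x : s) (y : ℝ) => f x (projIcc c d hcd y)) := by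
    refine h.comp_continuous (f := fun q : s × ℝ => ((q.1 : X), (projIcc c d hcd q.2 : ℝ))) ?_ ?_
    · exact (continuous_subtype_val.comp continuous_fst).prodMk
        (continuous_subtype_val.comp (continuous_projIcc.comp continuous_snd))
    · exact fun q => ⟨q.1.2, (projIcc c d hcd q.2).2⟩
  refine (intervalIntegral.continuous_parametric_intervalIntegral_of_continuous'
    (μ := volume) h1 c d).congr fun x => ?_
  refine intervalIntegral.integral_congr fun y hy => ?_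
  rw [uIcc_of_le hcd] at hy
  simp [projIcc_of_mem hcd hy]

theorem swap_param {f : ℝ → ℝ → ℝ} {a b c d : ℝ} (hab : a ≤ b) (hcd : c ≤ d)
    (h : ContinuousOn (Function.uncurry f) (Icc a b ×ˢ Icc c d)) :
    ∫ x in a..b, ∫ y in c..d, f x y = ∫ y in c..d, ∫ x in a..b, f x y := by
  refine intervalIntegral_intervalIntegral_swap ?_
  rw [uIoc_of_le hab, uIoc_of_le hcd]
  exact (h.integrableOn_compact (isCompact_Icc.prod isCompact_Icc)).mono_set
    (prod_mono Ioc_subset_Icc_self Ioc_subset_Icc_self)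

/-- The normalising constant. -/
noncomputable def bet (θ : ℝ) : ℝ := ∫ t in Ioi 0, rpowIntegrand₀₁ θ t 1

theorem bet_pos {θ : ℝ} (hθ : θ ∈ Ioo (0 : ℝ) 1) : 0 < bet θ :=
  integral_rpowIntegrand₀₁_one_pos hθ

theorem scal1 {θ c δ L : ℝ} (hθ : θ ∈ Ioo (0 : ℝ) 1) (hc : 0 ≤ c) (hδ : 0 < δ) (hL : δ ≤ L) :
    ∫ ε in δ..L, rpowIntegrand₀₁ θ ε c ≤ bet θ * c ^ θ := by
  rw [bet, mul_comm, ← integral_rpowIntegrand₀₁_eq_rpow_mul_const hθ hc,
    intervalIntegral.integral_of_le hL]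
  refine setIntegral_mono_set (integrableOn_rpowIntegrand₀₁_Ioi hθ hc) ?_ ?_
  · exact ae_restrict_of_forall_mem measurableSet_Ioi fun t ht =>
      rpowIntegrand₀₁_nonneg hθ.1 (le_of_lt ht) hc
  · exact .of_forall fun t ht => hδ.trans ht.1

theorem scal2 {θ c δ L : ℝ} (hθ : θ ∈ Ioo (0 : ℝ) 1) (hc : 0 ≤ c) (hδ : 0 < δ) (hL : δ ≤ L) :
    bet θ * c ^ θ - δ ^ θ / θ - c * L ^ (θ - 1) / (1 - θ) ≤ ∫ ε in δ..L, rpowIntegrand₀₁ θ ε c := by
  have hI := integrableOn_rpowIntegrand₀₁_Ioi hθ hc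
  have hL0 : 0 < L := hδ.trans_le hL
  have e1 := intervalIntegral.integral_interval_add_Ioi hI (hI.mono_set (Ioi_subset_Ioi hδ.le))
  have e2 := intervalIntegral.integral_interval_add_Ioi (hI.mono_set (Ioi_subset_Ioi hδ.le))
    (hI.mono_set (Ioi_subset_Ioi hL0.le))
  have b1 : ∫ ε in (0 : ℝ)..δ, rpowIntegrand₀₁ θ ε c ≤ δ ^ θ / θ := by
    have h1 : ∫ ε in (0 : ℝ)..δ, ε ^ (θ - 1) = δ ^ θ / θ := by
      rw [integral_rpow (Or.inl (by linarith [hθ.1]))]
      simp [Real.zero_rpow hθ.1.ne']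
    rw [← h1]
    refine intervalIntegral.integral_mono_on hδ.le ?_
      (intervalIntegral.intervalIntegrable_rpow' (by linarith [hθ.1])) fun t ht =>
      rpowIntegrand₀₁_le_rpow_sub_one hθ ht.1 hc
    rw [intervalIntegrable_iff_integrableOn_Ioc_of_le hδ.le]
    exact hI.mono_set Ioc_subset_Ioi_self
  have b2 : ∫ ε in Ioi L, rpowIntegrand₀₁ θ ε c ≤ c * L ^ (θ - 1) / (1 - θ) := by
    have h1 : ∫ ε in Ioi L, ε ^ (θ - 2) * c = c * L ^ (θ - 1) / (1 - θ) := by
      rw [integral_mul_const, integral_Ioi_rpow_of_lt (by linarith [hθ.2]) hL0,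
        show θ - 2 + 1 = θ - 1 by ring]
      have : θ - 1 ≠ 0 := by linarith [hθ.2]
      have : 1 - θ ≠ 0 := by linarith [hθ.2]
      field_simp; ring
    rw [← h1]
    refine setIntegral_mono_on (hI.mono_set (Ioi_subset_Ioi hL0.le))
      ((integrableOn_Ioi_rpow_of_lt (by linarith [hθ.2]) hL0).mul_const c) measurableSet_Ioi
      fun t ht => rpowIntegrand₀₁_le_rpow_sub_two_mul_self hθ (hL0.trans ht) hc
  rw [integral_rpowIntegrand₀₁_eq_rpow_mul_const hθ hc] at e1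
  rw [bet]
  linarith

theorem contOn_rp {θ δ L : ℝ} (hδ : 0 < δ) {X : Type} [TopologicalSpace X] {s : Set X}
    {c : X → ℝ} (hc : ContinuousOn c s) (h0 : ∀ x ∈ s, 0 ≤ c x) :
    ContinuousOn (Function.uncurry fun x ε => rpowIntegrand₀₁ θ ε (c x)) (s ×ˢ Icc δ L) := by
  have h1 : ContinuousOn (fun q : X × ℝ => c q.1) (s ×ˢ Icc δ L) :=
    hc.comp continuousOn_fst fun q hq => hq.1
  unfold rpowIntegrand₀₁
  refine ContinuousOn.mul (continuousOn_snd.rpow_const fun q hq => Or.inl ?_)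
    (ContinuousOn.sub (continuousOn_snd.inv₀ fun q hq => ?_)
      ((continuousOn_snd.add h1).inv₀ fun q hq => ?_))
  · exact (hδ.trans_le hq.2.1).ne'
  · exact (hδ.trans_le hq.2.1).ne'
  · exact (add_pos_of_pos_of_nonneg (hδ.trans_le hq.2.1) (h0 _ hq.1)).ne'

theorem scal3 {θ h δ L : ℝ} (hθ : θ ∈ Ioo (0 : ℝ) 1) (hh : 0 ≤ h) (hδ : 0 < δ) (hL : δ ≤ L) :
    ∫ ε in δ..L, ε ^ θ * (h / ε - (Real.log (ε + h) - Real.log ε))
      ≤ bet θ * h ^ (1 + θ) / (1 + θ) := by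
  have hc := contOn_rp (θ := θ) (L := L) hδ (s := Icc 0 h) (c := fun x => x) continuousOn_id
    fun x hx => hx.1
  have e1 : ∫ ε in δ..L, ε ^ θ * (h / ε - (Real.log (ε + h) - Real.log ε))
      = ∫ ε in δ..L, ∫ c in (0 : ℝ)..h, rpowIntegrand₀₁ θ ε c := by
    refine intervalIntegral.integral_congr fun ε hε => ?_
    rw [uIcc_of_le hL] at hε
    have hε0 : 0 < ε := hδ.trans_le hε.1
    have hd : ∀ c ∈ uIcc 0 h, HasDerivAt (fun c => ε ^ θ * (c / ε - Real.log (ε + c)))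
        (rpowIntegrand₀₁ θ ε c) c := fun c hc => by
      rw [uIcc_of_le hh] at hc
      have h1 : ε + c ≠ 0 := by linarith [hc.1]
      refine HasDerivAt.const_mul _ ?_
      refine (((hasDerivAt_id c).div_const ε).sub
        (((hasDerivAt_id c).const_add ε).log h1)).congr_deriv ?_
      simp
    have hi : IntervalIntegrable (rpowIntegrand₀₁ θ ε) volume 0 h := by
      refine ContinuousOn.intervalIntegrable ?_
      rw [uIcc_of_le hh]
      exact (continuousOn_rpowIntegrand₀₁_Ici hθ hε0).mono fun c hc => hc.1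
    rw [intervalIntegral.integral_eq_sub_of_hasDerivAt hd hi]
    simp; ring
  have e2 : ∫ c in (0 : ℝ)..h, bet θ * c ^ θ = bet θ * h ^ (1 + θ) / (1 + θ) := by
    rw [intervalIntegral.integral_const_mul, integral_rpow (Or.inl (by linarith [hθ.1])),
      Real.zero_rpow (by linarith [hθ.1]), add_comm θ 1]
    ring
  rw [e1, ← swap_param hh hL hc, ← e2]
  refine intervalIntegral.integral_mono_on hh ?_
    ((intervalIntegral.intervalIntegrable_rpow' (by linarith [hθ.1])).const_mul _)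
    fun c hc => scal1 hθ hc.1 hδ hL
  refine ContinuousOn.intervalIntegrable ?_
  rw [uIcc_of_le hh]
  exact contOn_param hL hc

/-- The constant `c_θ`. -/
noncomputable def cth (θ : ℝ) : ℝ := ∫ t in (-1 : ℝ)..1, (1 - t * t) ^ θ

theorem scal4 {θ κ δ L : ℝ} (hθ : θ ∈ Ioo (0 : ℝ) 1) (hκ : 0 < κ) (hδ : 0 < δ) (hL : δ ≤ L) :
    bet θ * cth θ * κ ^ (2 * θ) - 2 * (δ ^ θ / θ) - 2 * (κ * κ * L ^ (θ - 1) / (1 - θ))
      ≤ ∫ ε in δ..L, ∫ t in (-1 : ℝ)..1, rpowIntegrand₀₁ θ ε (κ * κ * (1 - t * t)) := by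
  have h0 : ∀ t ∈ Icc (-1 : ℝ) 1, 0 ≤ 1 - t * t := fun t ht => by nlinarith [ht.1, ht.2]
  have hc := contOn_rp (θ := θ) (L := L) hδ (s := Icc (-1 : ℝ) 1)
    (c := fun t => κ * κ * (1 - t * t)) (by fun_prop)
    fun t ht => mul_nonneg (mul_self_nonneg κ) (h0 t ht)
  have hi : IntervalIntegrable (fun t : ℝ => (1 - t * t) ^ θ) volume (-1) 1 :=
    Continuous.intervalIntegrable
      (Continuous.rpow_const (by fun_prop) fun t => Or.inr hθ.1.le) _ _
  have e1 : ∫ t in (-1 : ℝ)..1, (bet θ * κ ^ (2 * θ) * (1 - t * t) ^ θ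
      - (δ ^ θ / θ + κ * κ * L ^ (θ - 1) / (1 - θ)))
      = bet θ * cth θ * κ ^ (2 * θ) - 2 * (δ ^ θ / θ) - 2 * (κ * κ * L ^ (θ - 1) / (1 - θ)) := by
    rw [intervalIntegral.integral_sub (hi.const_mul _) intervalIntegrable_const,
      intervalIntegral.integral_const_mul, intervalIntegral.integral_const, cth]
    simp; ring
  rw [← swap_param (by norm_num) hL hc, ← e1]
  refine intervalIntegral.integral_mono_on (by norm_num)
    ((hi.const_mul _).sub intervalIntegrable_const) ?_ fun t ht => ?_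
  · refine ContinuousOn.intervalIntegrable ?_
    rw [uIcc_of_le (by norm_num)]
    exact contOn_param hL hc
  refine le_trans ?_ (scal2 hθ (mul_nonneg (mul_self_nonneg κ) (h0 t ht)) hδ hL)
  rw [Real.mul_rpow (mul_self_nonneg κ) (h0 t ht), Real.mul_rpow hκ.le hκ.le,
    ← Real.rpow_add hκ, ← two_mul]
  have h1 : 0 ≤ κ * κ * L ^ (θ - 1) / (1 - θ) :=
    div_nonneg (mul_nonneg (mul_self_nonneg κ) (Real.rpow_nonneg (hδ.le.trans hL) _))
      (by linarith [hθ.2])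
  have h2 : κ * κ * (1 - t * t) * L ^ (θ - 1) / (1 - θ)
      = κ * κ * L ^ (θ - 1) / (1 - θ) * (1 - t * t) := by ring
  rw [h2]
  nlinarith [mul_self_nonneg t]

theorem le_of_err {θ A B C D : ℝ} (hθ : θ ∈ Ioo (0 : ℝ) 1)
    (h : ∀ δ, 0 < δ → δ ≤ 1 → A ≤ B + C * δ ^ θ + D * δ⁻¹ ^ (θ - 1)) : A ≤ B := by
  have h1 : ∀ q : ℝ, 0 < q → Tendsto (fun δ : ℝ => δ ^ q) (𝓝[>] 0) (𝓝 0) := fun q hq => by
    have := (Real.continuousAt_rpow_const 0 q (Or.inr hq.le)).tendsto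
    rw [Real.zero_rpow hq.ne'] at this
    exact this.mono_left nhdsWithin_le_nhds
  have h2 : Tendsto (fun δ : ℝ => B + C * δ ^ θ + D * δ ^ (1 - θ)) (𝓝[>] 0) (𝓝 B) := by
    simpa using (((h1 θ hθ.1).const_mul C).const_add B).add
      ((h1 (1 - θ) (by linarith [hθ.2])).const_mul D)
  refine ge_of_tendsto h2 ?_
  filter_upwards [Ioc_mem_nhdsGT zero_lt_one] with δ hδ
  have := h δ hδ.1 hδ.2
  rwa [Real.inv_rpow hδ.1.le, ← Real.rpow_neg hδ.1.le, neg_sub] at this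

end Vale.Agent.P371
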