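import Vale.Agent.P371.Calib1
import Vale.Agent.P371.Scal

/-!
Integration of the calibration inequality in the regulator.
-/

namespace Vale.Agent.P371

open Matrix MeasureTheory Set
open scoped ComplexOrder Matrix.Norms.L2Operator Topology

variable {n : Type} [Fintype n] [DecidableEq n]

/-- `√(κ² + ε)`. -/
noncomputable def om (κ : n → ℝ) (ε : ℝ) : n → ℝ := fun i => √(κ i * κ i + ε)

variable {κ : n → ℝ} {X : Matrix n n ℂ} {ε θ : ℝ}

omit [Fintype n] [DecidableEq n] in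
theorem om_pos (hε : 0 < ε) (i : n) : 0 < om κ ε i :=
  Real.sqrt_pos.2 (add_pos_of_nonneg_of_pos (mul_self_nonneg _) hε)

omit [Fintype n] [DecidableEq n] in
theorem om_sq (hε : 0 < ε) (i : n) : om κ ε i * om κ ε i = κ i * κ i + ε :=
  Real.mul_self_sqrt (add_pos_of_nonneg_of_pos (mul_self_nonneg _) hε).le

omit [Fintype n] [DecidableEq n] in
theorem lt_om (hε : 0 < ε) (i : n) : κ i < om κ ε i :=
  Real.lt_sqrt_of_sq_lt (by nlinarith)

/-- `dg` as a linear map. -/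
noncomputable def dgL : (n → ℝ) →ₗ[ℝ] Matrix n n ℂ where
  toFun := dg
  map_add' d e := (dg_add d e).symm
  map_smul' r d := (dg_smul r d).symm

theorem hasDerivAt_dg {d : ℝ → n → ℝ} {d' : n → ℝ} {x : ℝ}
    (h : ∀ i, HasDerivAt (fun y => d y i) (d' i) x) : HasDerivAt (fun y => dg (d y)) (dg d') x :=
  (dgL (n := n)).toContinuousLinearMap.hasFDerivAt.comp_hasDerivAt x (hasDerivAt_pi.2 h)

theorem continuousOn_dg {Y : Type} [TopologicalSpace Y] {d : Y → n → ℝ} {s : Set Y}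
    (h : ∀ i, ContinuousOn (fun y => d y i) s) : ContinuousOn (fun y => dg (d y)) s :=
  (dgL (n := n)).toContinuousLinearMap.continuous.comp_continuousOn (continuousOn_pi.2 h)

theorem hasDerivAt_om (hε : 0 < ε) :
    HasDerivAt (fun e => dg (om κ e)) ((1 / 2 : ℝ) • dg (fun i => (om κ ε i)⁻¹)) ε := by
  rw [dg_smul]
  refine hasDerivAt_dg fun i => ?_
  refine (((hasDerivAt_id ε).const_add (κ i * κ i)).sqrt
    (add_pos_of_nonneg_of_pos (mul_self_nonneg _) hε).ne').congr_deriv ?_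
  simp only [id, om]; field_simp

/-- The sum of the two logarithmic determinants. -/
noncomputable def Lam (κ : n → ℝ) (X : Matrix n n ℂ) (ε : ℝ) : ℝ :=
  ld (dg (om κ ε) + X) + ld (dg (om κ ε) - X)

/-- Its derivative in the regulator. -/
noncomputable def LamD (κ : n → ℝ) (X : Matrix n n ℂ) (ε : ℝ) : ℝ :=
  rtr (dg (fun i => (om κ ε i)⁻¹) * (res (om κ ε) X 1 + res (om κ ε) X (-1))) / 2

theorem hasDerivAt_Lam (h : Box κ X) (hε : 0 < ε) : HasDerivAt (Lam κ X) (LamD κ X ε) ε := by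
  have h1 := (h.pd (lt_om hε) (t := 1) ⟨by norm_num, le_rfl⟩).isUnit
  have h2 := (h.pd (lt_om hε) (t := -1) ⟨le_rfl, by norm_num⟩).isUnit
  simp only [one_smul, neg_smul, sub_neg_eq_add] at h1 h2
  refine ((hasDerivAt_ld ((hasDerivAt_om hε).add_const X) h2).add
    (hasDerivAt_ld ((hasDerivAt_om hε).sub_const X) h1)).congr_deriv ?_
  simp only [LamD, res, one_smul, neg_smul, sub_neg_eq_add, Matrix.mul_smul, rtr_smul,
    Matrix.mul_add, rtr_add, rtr_comm (dg _)]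
  ring

/-- The integrand of the calibration along a path with velocity `X'`. -/
noncomputable def fI (θ : ℝ) (κ : n → ℝ) (X X' : Matrix n n ℂ) (ε t : ℝ) : ℝ :=
  ε ^ θ * ((-rtr X' / ε + rtr (res (om κ ε) X t * res (om κ ε) X t * X')) / 2)

/-- The boundary term. -/
noncomputable def gI (θ : ℝ) (κ : n → ℝ) (X : Matrix n n ℂ) (ε : ℝ) : ℝ :=
  ε ^ (1 + θ) * (Lam κ X ε - Fintype.card n * Real.log ε - rtr (dg κ * dg κ - X * X) / ε)

/-- Its derivative. -/
noncomputable def gD (θ : ℝ) (κ : n → ℝ) (X : Matrix n n ℂ) (ε : ℝ) : ℝ :=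
  ε ^ θ * ((1 + θ) * (Lam κ X ε - Fintype.card n * Real.log ε) + (ε * LamD κ X ε - Fintype.card n)
    - θ * (rtr (dg κ * dg κ - X * X) / ε))

theorem hasDerivAt_gI (h : Box κ X) (hε : 0 < ε) : HasDerivAt (gI θ κ X) (gD θ κ X ε) ε := by
  have h1 := (Real.hasDerivAt_rpow_const (p := 1 + θ) (Or.inl hε.ne')).mul
    (((hasDerivAt_Lam h hε).sub ((Real.hasDerivAt_log hε.ne').const_mul (Fintype.card n : ℝ))).sub
      ((hasDerivAt_inv hε.ne').const_mul (rtr (dg κ * dg κ - X * X))))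
  refine HasDerivAt.congr_deriv h1 ?_
  simp only [gD, add_sub_cancel_left, Real.rpow_add hε, Real.rpow_one, Pi.sub_apply]
  field_simp; ring

theorem calib_pt (h : Box κ X) (hθ : 0 < θ) (hε : 0 < ε) {H U : Matrix n n ℂ} {η : n → ℝ}
    (hH : Dec H U η) (hη : ∀ i, 0 ≤ η i) :
    ∫ t in (-1 : ℝ)..1, fI θ κ X (dg κ * dg κ - X * X - (1 + θ⁻¹) • H) ε t
      ≤ (1 + θ⁻¹) * ∑ i, ε ^ θ * (η i / ε - (Real.log (ε + η i) - Real.log ε))
        + θ⁻¹ * gD θ κ X ε := by
  have hω := lt_om (κ := κ) hε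
  have hc := h.continuousOn_res hω
  have hJ := (hH.const ε).add hH
  have hJp := hJ.pd_iff.2 fun i => add_pos_of_pos_of_nonneg hε (hη i)
  have c1 := calib1 h hω (om_pos hε) hJp
  have c2 := calib2 h hω (om_pos hε)
  have c3 := calib3 h hω
  rw [hJ.ld_eq fun i => add_pos_of_pos_of_nonneg hε (hη i)] at c1
  have e0 : dg (om κ ε) * dg (om κ ε) - X * X = ε • 1 + (dg κ * dg κ - X * X) := by
    rw [dg_mul, dg_mul, ← dg_const, ← add_sub_assoc, dg_add]
    congr 2; ext i; rw [om_sq hε, add_comm]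
  rw [e0] at c3
  have hC := hH.rtr_eq
  set C := dg κ * dg κ - X * X
  have i1 : IntervalIntegrable (fun t => rtr (res (om κ ε) X t * res (om κ ε) X t)) volume (-1) 1 :=
    ContinuousOn.intervalIntegrable (by fun_prop)
  have i2 : ∀ A : Matrix n n ℂ, IntervalIntegrable
      (fun t => rtr (res (om κ ε) X t * res (om κ ε) X t * A)) volume (-1) 1 := fun A =>
    ContinuousOn.intervalIntegrable (by fun_prop)
  simp only [Matrix.mul_add, Matrix.mul_smul, Matrix.mul_one, rtr_add, rtr_smul] at c1 c3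
  rw [intervalIntegral.integral_add (i1.const_mul _) (i2 _), intervalIntegral.integral_const_mul]
    at c1 c3
  simp only [fI, Matrix.mul_sub _ C, Matrix.mul_smul, rtr_sub _ (_ • _), rtr_smul]
  rw [intervalIntegral.integral_const_mul, intervalIntegral.integral_div,
    intervalIntegral.integral_add intervalIntegrable_const ((i2 _).sub ((i2 _).const_mul _)),
    intervalIntegral.integral_sub (i2 _) ((i2 _).const_mul _), intervalIntegral.integral_const_mul,
    intervalIntegral.integral_const, ← Finset.mul_sum, gD, mul_left_comm, mul_left_comm θ⁻¹,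
    ← mul_add]
  refine mul_le_mul_of_nonneg_left ?_ (Real.rpow_nonneg hε.le _)
  simp only [Finset.sum_sub_distrib, ← Finset.sum_div, Finset.sum_const, Finset.card_univ,
    nsmul_eq_mul, smul_eq_mul, LamD, Lam, hC]
  have hq : 0 < θ⁻¹ := inv_pos.2 hθ
  have hq1 : θ⁻¹ * θ = 1 := inv_mul_cancel₀ hθ.ne'
  have c2' := mul_le_mul_of_nonneg_left c2 (mul_pos hq hε).le
  have c1' := mul_le_mul_of_nonneg_left c1 (show 0 ≤ 1 + θ⁻¹ by linarith)
  generalize (∫ t in (-1 : ℝ)..1, rtr (res (om κ ε) X t * res (om κ ε) X t)) = A at *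
  generalize (∫ t in (-1 : ℝ)..1, rtr (res (om κ ε) X t * res (om κ ε) X t * H)) = B at *
  generalize (∫ t in (-1 : ℝ)..1, rtr (res (om κ ε) X t * res (om κ ε) X t * C)) = D at *
  generalize ld (dg (om κ ε) + X) + ld (dg (om κ ε) - X) = Λ at *
  generalize rtr (dg (fun i => (om κ ε i)⁻¹) * (res (om κ ε) X 1 + res (om κ ε) X (-1))) = Λ' at *
  have e1 : θ⁻¹ * ((1 + θ) * (Λ - Fintype.card n * Real.log ε) + (ε * (Λ' / 2) - Fintype.card n)
      - θ * (rtr C / ε)) = (1 + θ⁻¹) * (Λ - Fintype.card n * Real.log ε)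
        + θ⁻¹ * (ε * (Λ' / 2) - Fintype.card n) - rtr C / ε := by
    linear_combination (Λ - Fintype.card n * Real.log ε - rtr C / ε) * hq1
  rw [e1]
  have e2 : -(rtr C - (1 + θ⁻¹) * ∑ i, η i) / ε = -(rtr C / ε) + (1 + θ⁻¹) * ((∑ i, η i) / ε) := by
    ring
  rw [e2]
  nlinarith

theorem Box.rtr_sq_le (h : Box κ X) {k : ℝ} (hk : ∀ i, κ i ≤ k) :
    rtr (X * X) ≤ Fintype.card n * (k * k) := by
  obtain ⟨U, x, hx⟩ := exists_dec h.herm
  have h0 : (k • (1 : Matrix n n ℂ) - dg κ).PosSemidef := by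
    rw [← dg_const, dg_sub]; exact dg_psd.2 fun i => sub_nonneg.2 (hk i)
  have h1 := ((hx.const k).sub hx).psd_iff.1 (by simpa using h0.add h.up)
  have h2 := ((hx.const k).add hx).psd_iff.1 (by
    have := h0.add h.lo
    rwa [show k • 1 - dg κ + (dg κ + X) = k • 1 + X by abel] at this)
  rw [(hx.mul hx).rtr_eq]
  have : ∑ i, x i * x i ≤ ∑ _i : n, k * k :=
    Finset.sum_le_sum fun i _ => by nlinarith [h1 i, h2 i]
  simpa using this

theorem gI_upper (h : Box κ X) (hε : 0 < ε) {k : ℝ} (hκ : ∀ i, 0 ≤ κ i) (hk : ∀ i, κ i ≤ k) :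
    gI θ κ X ε ≤ Fintype.card n * k ^ 4 * ε ^ (θ - 1) := by
  have h1 := ld_upper h (lt_om hε) (om_pos hε)
  have h2 := (Dec.ofDg fun i => (om κ ε i)⁻¹).ds (Dec.ofDg fun i => (om κ ε i)⁻¹) X
  have h3 := rtr_star_mul X
  have h4 := h.rtr_sq_le hk
  rw [h.herm.eq] at h2 h3
  simp only [conjTranspose_one, Matrix.one_mul, Matrix.mul_one] at h2
  have hkk : ∀ i, κ i * κ i ≤ k * k := fun i => mul_self_le_mul_self (hκ i) (hk i)
  have h5 : (ε⁻¹ - k * k / ε ^ 2) * rtr (X * X)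
      ≤ rtr (X * dg (fun i => (om κ ε i)⁻¹) * X * dg fun i => (om κ ε i)⁻¹) := by
    rw [h2, h3, Finset.mul_sum]
    refine Finset.sum_le_sum fun l _ => ?_
    rw [Finset.mul_sum]
    refine Finset.sum_le_sum fun i _ => ?_
    rw [mul_comm]
    refine mul_le_mul_of_nonneg_left ?_ (by positivity)
    have a1 : om κ ε i * om κ ε l ≤ k * k + ε := by
      nlinarith [om_sq (κ := κ) hε i, om_sq (κ := κ) hε l, hkk i, hkk l,
        mul_self_nonneg (om κ ε i - om κ ε l)]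
    have a2 : 0 < k * k + ε := add_pos_of_nonneg_of_pos (mul_self_nonneg k) hε
    rw [← mul_inv]
    refine le_trans ?_ (inv_anti₀ (mul_pos (om_pos hε i) (om_pos hε l)) a1)
    rw [inv_eq_one_div (k * k + ε), le_div_iff₀ a2]
    have : (ε⁻¹ - k * k / ε ^ 2) * (k * k + ε) = 1 - (k * k / ε) ^ 2 := by field_simp; ring
    rw [this]; nlinarith [sq_nonneg (k * k / ε)]
  have h6 : 2 * ∑ i, Real.log (om κ ε i)
      ≤ Fintype.card n * Real.log ε + rtr (dg κ * dg κ) / ε := by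
    rw [dg_mul, rtr_dg, Finset.mul_sum, Finset.sum_div]
    have : ∑ i, 2 * Real.log (om κ ε i) ≤ ∑ i, (Real.log ε + κ i * κ i / ε) := by
      refine Finset.sum_le_sum fun i _ => ?_
      have a2 : 0 < κ i * κ i + ε := add_pos_of_nonneg_of_pos (mul_self_nonneg _) hε
      have a3 := Real.log_le_sub_one_of_pos (div_pos a2 hε)
      rw [Real.log_div a2.ne' hε.ne', add_div, div_self hε.ne'] at a3
      rw [om, Real.log_sqrt a2.le]; linarith
    simpa [Finset.sum_add_distrib] using this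
  have h7 : Lam κ X ε - Fintype.card n * Real.log ε - rtr (dg κ * dg κ - X * X) / ε
      ≤ Fintype.card n * k ^ 4 / ε ^ 2 := by
    have a1 := mul_le_mul_of_nonneg_left h4 (show 0 ≤ k * k / ε ^ 2 from
      div_nonneg (mul_self_nonneg k) (sq_nonneg ε))
    have a2 : k * k / ε ^ 2 * (Fintype.card n * (k * k)) = Fintype.card n * k ^ 4 / ε ^ 2 := by ring
    rw [Lam, rtr_sub, sub_div, div_eq_inv_mul (rtr (X * X))]
    nlinarith
  refine (mul_le_mul_of_nonneg_left h7 (Real.rpow_nonneg hε.le _)).trans (le_of_eq ?_)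
  rw [Real.rpow_add hε, Real.rpow_sub hε, Real.rpow_one]; field_simp

theorem gI_lower (h : Box κ X) (hε : 0 < ε) (hε1 : ε ≤ 1) {k : ℝ} (hk0 : 0 ≤ k)
    (hκ : ∀ i, 0 ≤ κ i) (hk : ∀ i, κ i ≤ k) :
    -gI θ κ X ε ≤ Fintype.card n * (4 * k + 1 + k * k) * ε ^ θ := by
  have hη : 0 < ε / (2 * k + 1) := by positivity
  have h0 : ∀ t ∈ Icc (-1 : ℝ) 1,
      (dg (om κ ε) - t • X - (ε / (2 * k + 1)) • (1 : Matrix n n ℂ)).PosSemidef := fun t ht => by
    rw [Box.split (κ := κ), add_sub_right_comm, ← dg_const, dg_sub]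
    refine (dg_psd.2 fun i => ?_).add (h.psd_part ht)
    have a1 : om κ ε i ≤ κ i + 1 :=
      Real.sqrt_le_iff.2 ⟨by linarith [hκ i], by nlinarith [hκ i]⟩
    have a2 := om_sq (κ := κ) hε i
    have a3 := lt_om (κ := κ) hε i
    rw [sub_nonneg, div_le_iff₀ (by positivity)]
    nlinarith [hk i, hκ i]
  have h1 := ld_lower (h.pd (lt_om hε) (t := 1) ⟨by norm_num, le_rfl⟩).1 hη
    (h0 1 ⟨by norm_num, le_rfl⟩)
  have h2 := ld_lower (h.pd (lt_om hε) (t := -1) ⟨le_rfl, by norm_num⟩).1 hη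
    (h0 (-1) ⟨le_rfl, by norm_num⟩)
  simp only [one_smul, neg_smul, sub_neg_eq_add] at h1 h2
  rw [Real.log_div hε.ne' (by positivity)] at h1 h2
  have h3 : rtr (dg κ * dg κ - X * X) ≤ Fintype.card n * (k * k) := by
    have a1 : 0 ≤ rtr (X * X) := by
      have := rtr_nonneg (posSemidef_conjTranspose_mul_self X)
      rwa [h.herm.eq] at this
    have a2 : ∑ i, κ i * κ i ≤ ∑ _i : n, k * k :=
      Finset.sum_le_sum fun i _ => mul_self_le_mul_self (hκ i) (hk i)
    rw [rtr_sub, dg_mul, rtr_dg]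
    simp only [Finset.sum_const, Finset.card_univ, nsmul_eq_mul] at a2
    linarith
  have h4 : Real.log (2 * k + 1) ≤ 2 * k := by
    have := Real.log_le_sub_one_of_pos (show 0 < 2 * k + 1 by positivity); linarith
  have h5 : -(ε * Real.log ε) ≤ 1 := by
    have := Real.log_le_sub_one_of_pos (inv_pos.2 hε)
    rw [Real.log_inv] at this
    have := mul_le_mul_of_nonneg_left this hε.le
    rw [mul_sub, mul_inv_cancel₀ hε.ne'] at this
    linarith
  have hN : (0 : ℝ) ≤ Fintype.card n := Nat.cast_nonneg _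
  have h6 : -(ε * (Lam κ X ε - Fintype.card n * Real.log ε - rtr (dg κ * dg κ - X * X) / ε))
      ≤ Fintype.card n * (4 * k + 1 + k * k) := by
    have a1 : Fintype.card n * (Real.log ε - 4 * k) ≤ Lam κ X ε - Fintype.card n * Real.log ε := by
      rw [Lam]; nlinarith [mul_le_mul_of_nonneg_left h4 hN]
    have a2 := mul_le_mul_of_nonneg_left a1 hε.le
    have a3 := mul_le_mul_of_nonneg_left h5 hN
    have a4 := mul_le_mul_of_nonneg_left hε1 (mul_nonneg hN hk0)
    rw [mul_sub ε _ (_ / _), mul_div_cancel₀ _ hε.ne']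
    nlinarith
  have := mul_le_mul_of_nonneg_right h6 (Real.rpow_nonneg hε.le θ)
  rw [gI, Real.rpow_add hε, Real.rpow_one]
  linarith

theorem calib_eps (h : Box κ X) (hθ : θ ∈ Ioo (0 : ℝ) 1) {δ L k : ℝ} (hδ : 0 < δ) (hδ1 : δ ≤ 1)
    (hL : δ ≤ L) (hk0 : 0 ≤ k) (hκ : ∀ i, 0 ≤ κ i) (hk : ∀ i, κ i ≤ k)
    {H U : Matrix n n ℂ} {η : n → ℝ} (hH : Dec H U η) (hη : ∀ i, 0 ≤ η i)
    (hi : IntervalIntegrable (fun ε => ∫ t in (-1 : ℝ)..1,
      fI θ κ X (dg κ * dg κ - X * X - (1 + θ⁻¹) • H) ε t) volume δ L) :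
    ∫ ε in δ..L, ∫ t in (-1 : ℝ)..1, fI θ κ X (dg κ * dg κ - X * X - (1 + θ⁻¹) • H) ε t
      ≤ θ⁻¹ * (bet θ * ∑ i, η i ^ (1 + θ) + Fintype.card n * (4 * k + 1 + k * k) * δ ^ θ
        + Fintype.card n * k ^ 4 * L ^ (θ - 1)) := by
  have hq : 0 < θ⁻¹ := inv_pos.2 hθ.1
  have i1 : ∀ i, IntervalIntegrable
      (fun ε => ε ^ θ * (η i / ε - (Real.log (ε + η i) - Real.log ε))) volume δ L := fun i => by
    refine ContinuousOn.intervalIntegrable ?_
    rw [uIcc_of_le hL]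
    have a1 : ∀ ε ∈ Icc δ L, ε ≠ 0 := fun ε hε => (hδ.trans_le hε.1).ne'
    refine (continuousOn_id.rpow_const fun ε hε => Or.inl (a1 ε hε)).mul
      ((continuousOn_const.div continuousOn_id a1).sub
        ((ContinuousOn.log (by fun_prop) fun ε hε => ?_).sub (continuousOn_id.log a1)))
    exact (add_pos_of_pos_of_nonneg (hδ.trans_le hε.1) (hη i)).ne'
  have i2 : IntervalIntegrable (fun ε => (1 + θ⁻¹) *
      ∑ i, ε ^ θ * (η i / ε - (Real.log (ε + η i) - Real.log ε))) volume δ L := by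
    refine IntervalIntegrable.const_mul ?_ _
    have := IntervalIntegrable.sum Finset.univ fun i _ => i1 i
    rwa [Finset.sum_fn] at this
  have h1 := intervalIntegral.integral_le_sub_of_hasDeriv_right_of_le hL
    (g := fun ε => θ⁻¹ * gI θ κ X ε) (g' := fun ε => θ⁻¹ * gD θ κ X ε)
    (fun ε hε => ((hasDerivAt_gI h (hδ.trans_le hε.1)).const_mul _).continuousAt.continuousWithinAt)
    (fun ε hε => ((hasDerivAt_gI h (hδ.trans hε.1)).const_mul _).hasDerivWithinAt)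
    ((intervalIntegrable_iff_integrableOn_Icc_of_le hL).1 (hi.sub i2))
    (fun ε hε => by linarith [calib_pt h hθ.1 (hδ.trans hε.1) hH hη])
  rw [intervalIntegral.integral_sub hi i2, intervalIntegral.integral_const_mul,
    intervalIntegral.integral_finset_sum fun i _ => i1 i] at h1
  have h2 : ∑ i, ∫ ε in δ..L, ε ^ θ * (η i / ε - (Real.log (ε + η i) - Real.log ε))
      ≤ ∑ i, bet θ * η i ^ (1 + θ) / (1 + θ) :=
    Finset.sum_le_sum fun i _ => scal3 hθ (hη i) hδ hL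
  have h3 := mul_le_mul_of_nonneg_left h2 (show 0 ≤ 1 + θ⁻¹ by linarith)
  have h4 : (1 + θ⁻¹) * ∑ i, bet θ * η i ^ (1 + θ) / (1 + θ)
      = θ⁻¹ * (bet θ * ∑ i, η i ^ (1 + θ)) := by
    rw [← Finset.sum_div, ← Finset.mul_sum]
    have := hθ.1.ne'
    have : 1 + θ ≠ 0 := by linarith [hθ.1]
    field_simp; ring
  have h5 := mul_le_mul_of_nonneg_left (gI_upper (θ := θ) h (hδ.trans_le hL) hκ hk) hq.le
  have h6 := mul_le_mul_of_nonneg_left (gI_lower (θ := θ) h hδ hδ1 hk0 hκ hk) hq.le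
  linarith

end Vale.Agent.P371
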