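import Vale.Agent.P371.Calib2

/-!
The calibration inequality along a Riccati path.
-/

namespace Vale.Agent.P371

open Matrix MeasureTheory Set Real
open scoped ComplexOrder Matrix.Norms.L2Operator Topology

variable {n : Type} [Fintype n] [DecidableEq n]

theorem continuousOn_minv {Y : Type} [TopologicalSpace Y] {A : Y → Matrix n n ℂ} {s : Set Y}
    (h : ContinuousOn A s) (hu : ∀ x ∈ s, IsUnit (A x)) : ContinuousOn (fun y => (A y)⁻¹) s := by
  rw [continuousOn_iff_continuous_restrict] at h ⊢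
  exact continuous_minv h fun x => hu x x.2

theorem contOn_fI {Y : Type} [TopologicalSpace Y] {s : Set Y} {θ : ℝ} {κ : n → ℝ}
    {X X' : Y → Matrix n n ℂ} {e t : Y → ℝ} (hX : ContinuousOn X s) (hX' : ContinuousOn X' s)
    (he : ContinuousOn e s) (ht : ContinuousOn t s) (hb : ∀ y ∈ s, Box κ (X y))
    (he0 : ∀ y ∈ s, 0 < e y) (ht1 : ∀ y ∈ s, t y ∈ Icc (-1 : ℝ) 1) :
    ContinuousOn (fun y => fI θ κ (X y) (X' y) (e y) (t y)) s := by
  have h1 : ContinuousOn (fun y => res (om κ (e y)) (X y) (t y)) s := by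
    refine continuousOn_minv (ContinuousOn.sub (continuousOn_dg fun i => ?_) (ht.smul hX))
      fun y hy => ((hb y hy).pd (lt_om (he0 y hy)) (ht1 y hy)).isUnit
    unfold om; fun_prop
  unfold fI
  refine (he.rpow_const fun y hy => Or.inl (he0 y hy).ne').mul (ContinuousOn.div_const
    (ContinuousOn.add (ContinuousOn.div (by fun_prop) he fun y hy => (he0 y hy).ne') ?_) _)
  fun_prop

theorem res_dg {ω x : n → ℝ} {t : ℝ} (h : ∀ i, ω i - t * x i ≠ 0) :
    res ω (dg x) t = dg (fun i => (ω i - t * x i)⁻¹) := by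
  refine Matrix.inv_eq_right_inv ?_
  rw [dg_smul, dg_sub, dg_mul, ← dg_one]
  congr 1; ext i; exact mul_inv_cancel₀ (h i)

theorem path_ftc {θ ε t a b : ℝ} {κ : n → ℝ} {X X' : ℝ → Matrix n n ℂ} (hab : a ≤ b)
    (hκ : ∀ i, 0 < κ i) (hX : Continuous X) (hX' : Continuous X') (hb : ∀ x, Box κ (X x))
    (hd : ∀ x ∈ Ioo a b, HasDerivAt X (X' x) x) (ha : X a = dg κ) (hb' : X b = -dg κ)
    (hε : 0 < ε) (ht : t ∈ Icc (-1 : ℝ) 1) :
    ∫ x in a..b, fI θ κ (X x) (X' x) ε t
      = ∑ i, κ i * rpowIntegrand₀₁ θ ε (κ i * κ i * (1 - t * t)) := by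
  have hω := lt_om (κ := κ) hε
  have hu : ∀ x, IsUnit (dg (om κ ε) - t • X x) := fun x => ((hb x).pd hω ht).isUnit
  have hc : Continuous fun x => res (om κ ε) (X x) t := continuous_minv (by fun_prop) hu
  have h1 := intervalIntegral.integral_eq_sub_of_hasDerivAt_of_le hab
    (f := fun x => ε ^ θ * ((-rtr (X x) / ε
      + rtr (dg (fun i => (om κ ε i)⁻¹) * (X x * res (om κ ε) (X x) t))) / 2))
    (f' := fun x => fI θ κ (X x) (X' x) ε t) (Continuous.continuousOn (by fun_prop))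
    (fun x hx => ?_) (Continuous.intervalIntegrable (by unfold fI; fun_prop) _ _)
  · rw [h1, ha, hb', show -dg κ = dg (fun i => -κ i) by
      rw [← neg_one_smul ℝ, dg_smul]; simp]
    have a1 : ∀ i, 0 < om κ ε i - t * κ i := fun i => by nlinarith [hω i, hκ i, ht.2]
    have a2 : ∀ i, 0 < om κ ε i - t * -κ i := fun i => by nlinarith [hω i, hκ i, ht.1]
    rw [res_dg fun i => (a1 i).ne', res_dg fun i => (a2 i).ne']
    simp only [dg_mul, rtr_dg, neg_div, Finset.sum_div, ← Finset.sum_neg_distrib,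
      ← Finset.sum_add_distrib, Finset.mul_sum, ← Finset.sum_sub_distrib]
    refine Finset.sum_congr rfl fun i _ => ?_
    have a3 : ε + κ i * κ i * (1 - t * t) = (om κ ε i - t * κ i) * (om κ ε i - t * -κ i) := by
      linear_combination -om_sq (κ := κ) hε i
    rw [rpowIntegrand₀₁, a3, mul_inv]
    have b1 := mul_inv_cancel₀ (a1 i).ne'
    have b2 := mul_inv_cancel₀ (a2 i).ne'
    have b3 := mul_inv_cancel₀ (om_pos (κ := κ) hε i).ne'
    generalize (om κ ε i - t * κ i)⁻¹ = u at *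
    generalize (om κ ε i - t * -κ i)⁻¹ = v at *
    generalize (om κ ε i)⁻¹ = w at *
    have b4 : w * (u + v) = 2 * (u * v) := by
      linear_combination (-w * v) * b1 + (-w * u) * b2 + 2 * u * v * b3
    linear_combination (-ε ^ θ * κ i / 2) * b4
  · refine HasDerivAt.const_mul _ (HasDerivAt.div_const ?_ _)
    refine ((hasDerivAt_rtr (hd x hx)).neg.div_const ε).add ?_
    have h2 := hasDerivAt_minv (((hd x hx).const_smul t).const_sub (dg (om κ ε))) (hu x)
    refine (hasDerivAt_rtr (((hd x hx).mul h2).const_mul _)).congr_deriv ?_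
    have h3 := (hb x).om_res hω ht
    simp only [res, Pi.smul_apply] at h3 ⊢
    generalize (dg (om κ ε) - t • X x)⁻¹ = R at h3 ⊢
    have h4 : X' x * R + X x * -(R * -(t • X' x) * R) = dg (om κ ε) * (R * X' x * R) := by
      rw [← Matrix.mul_assoc, ← Matrix.mul_assoc, h3]
      simp [Matrix.add_mul, Matrix.mul_assoc]
    rw [h4, ← Matrix.mul_assoc, dg_inv_mul (om_pos hε), Matrix.one_mul, rtr_comm,
      Matrix.mul_assoc]

theorem calibB_diag {θ a b : ℝ} (hθ : θ ∈ Ioo (0 : ℝ) 1) {κ : n → ℝ} {X H : ℝ → Matrix n n ℂ}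
    (hab : a ≤ b) (hκ : ∀ i, 0 < κ i) (hX : Continuous X) (hH : Continuous H)
    (hb : ∀ x, Box κ (X x)) (hH0 : ∀ x, (H x).PosSemidef)
    (hd : ∀ x ∈ Ioo a b, HasDerivAt X (dg κ * dg κ - X x * X x - (1 + θ⁻¹) • H x) x)
    (ha : X a = dg κ) (hb' : X b = -dg κ) :
    cth θ * ∑ i, κ i ^ (2 * θ + 1) ≤ θ⁻¹ * ∫ x in a..b, rtr (cfc (fun t : ℝ => t ^ (1 + θ)) (H x)) := by
  set X' : ℝ → Matrix n n ℂ := fun x => dg κ * dg κ - X x * X x - (1 + θ⁻¹) • H x with hX'def
  have hX' : Continuous X' := by fun_prop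
  set k := ∑ i, κ i
  have hk0 : 0 ≤ k := Finset.sum_nonneg fun i _ => (hκ i).le
  have hk : ∀ i, κ i ≤ k := fun i =>
    Finset.single_le_sum (fun i _ => (hκ i).le) (Finset.mem_univ i)
  have hcH : Continuous fun x => rtr (cfc (fun t : ℝ => t ^ (1 + θ)) (H x)) :=
    continuous_rtr (continuous_cfc hH (fun x => (hH0 x).1)
      (Real.continuous_rpow_const (by linarith [hθ.1])))
  refine le_of_mul_le_mul_left ?_ (bet_pos hθ)
  refine le_of_err hθ (C := θ⁻¹ * (Fintype.card n * (4 * k + 1 + k * k)) * (b - a) + 2 * k / θ)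
    (D := θ⁻¹ * (Fintype.card n * k ^ 4) * (b - a) + ∑ i, 2 * (κ i * (κ i * κ i)) / (1 - θ))
    fun δ hδ hδ1 => ?_
  have hL : δ ≤ δ⁻¹ := hδ1.trans (one_le_inv_iff₀.2 ⟨hδ, hδ1⟩)
  generalize δ⁻¹ = L at hL ⊢
  have hg : ContinuousOn (Function.uncurry fun x ε => ∫ t in (-1 : ℝ)..1, fI θ κ (X x) (X' x) ε t)
      (Icc a b ×ˢ Icc δ L) := by
    refine contOn_param (X := ℝ × ℝ) (f := fun q t => fI θ κ (X q.1) (X' q.1) q.2 t)
      (by norm_num) ?_
    exact contOn_fI (X := fun y : (ℝ × ℝ) × ℝ => X y.1.1) (X' := fun y => X' y.1.1)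
      (e := fun y => y.1.2) (t := fun y => y.2) (by fun_prop) (by fun_prop) (by fun_prop)
      (by fun_prop) (fun y _ => hb _) (fun y hy => hδ.trans_le hy.1.2.1) fun y hy => hy.2
  have hrp : ∀ i, ContinuousOn (Function.uncurry fun ε t =>
      rpowIntegrand₀₁ θ ε (κ i * κ i * (1 - t * t))) (Icc δ L ×ˢ Icc (-1 : ℝ) 1) := fun i =>
    (contOn_rp (θ := θ) (L := L) hδ (s := Icc (-1 : ℝ) 1)
      (c := fun t => κ i * κ i * (1 - t * t)) (by fun_prop) fun t ht =>
        mul_nonneg (mul_self_nonneg _) (by nlinarith [ht.1, ht.2])).comp continuous_swap.continuousOn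
      fun q hq => ⟨hq.2, hq.1⟩
  have sA : ∫ ε in δ..L, ∫ x in a..b, ∫ t in (-1 : ℝ)..1, fI θ κ (X x) (X' x) ε t
      = ∑ i, κ i * ∫ ε in δ..L, ∫ t in (-1 : ℝ)..1,
        rpowIntegrand₀₁ θ ε (κ i * κ i * (1 - t * t)) := by
    simp only [← intervalIntegral.integral_const_mul]
    rw [← intervalIntegral.integral_finset_sum fun i _ => ?_]
    · refine intervalIntegral.integral_congr fun ε hε => ?_
      rw [uIcc_of_le hL] at hε
      have hε0 := hδ.trans_le hε.1
      rw [swap_param hab (by norm_num) (f := fun x t => fI θ κ (X x) (X' x) ε t)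
        (contOn_fI (X := fun y : ℝ × ℝ => X y.1) (X' := fun y => X' y.1)
          (e := fun _ => ε) (t := fun y => y.2) (by fun_prop) (by fun_prop) (by fun_prop)
          (by fun_prop) (fun y _ => hb _) (fun y hy => hε0) fun y hy => hy.2),
        ← intervalIntegral.integral_finset_sum fun i _ => ?_]
      · refine intervalIntegral.integral_congr fun t ht => ?_
        rw [uIcc_of_le (by norm_num)] at ht
        exact path_ftc hab hκ hX hX' hb hd ha hb' hε0 ht
      · refine IntervalIntegrable.const_mul (ContinuousOn.intervalIntegrable ?_) _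
        rw [uIcc_of_le (by norm_num)]
        exact (hrp i).comp (f := fun t => (ε, t)) (by fun_prop) fun t ht => ⟨hε, ht⟩
    · simp only [intervalIntegral.integral_const_mul]
      refine IntervalIntegrable.const_mul (ContinuousOn.intervalIntegrable ?_) _
      rw [uIcc_of_le hL]
      exact contOn_param (by norm_num) (hrp i)
  have sB := swap_param hab hL hg
  have sC : ∫ x in a..b, ∫ ε in δ..L, ∫ t in (-1 : ℝ)..1, fI θ κ (X x) (X' x) ε t
      ≤ ∫ x in a..b, θ⁻¹ * (bet θ * rtr (cfc (fun t : ℝ => t ^ (1 + θ)) (H x))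
        + (Fintype.card n * (4 * k + 1 + k * k) * δ ^ θ + Fintype.card n * k ^ 4 * L ^ (θ - 1))) := by
    refine intervalIntegral.integral_mono_on hab (ContinuousOn.intervalIntegrable ?_)
      (Continuous.intervalIntegrable (by fun_prop) _ _) fun x hx => ?_
    · rw [uIcc_of_le hab]
      exact contOn_param hL hg
    obtain ⟨U, η, hη⟩ := exists_dec (hH0 x).1
    rw [(hη.cfc _).rtr_eq, ← add_assoc]
    refine calib_eps (hb x) hθ hδ hδ1 hL hk0 (fun i => (hκ i).le) hk hη (hη.psd_iff.1 (hH0 x))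
      (ContinuousOn.intervalIntegrable ?_)
    rw [uIcc_of_le hL]
    exact hg.comp (f := fun ε => (x, ε)) (by fun_prop) fun ε hε => ⟨hx, hε⟩
  rw [intervalIntegral.integral_const_mul, intervalIntegral.integral_add
    ((hcH.intervalIntegrable _ _).const_mul _) intervalIntegrable_const,
    intervalIntegral.integral_const_mul, intervalIntegral.integral_const, sB, sA] at sC
  have sD : ∑ i, κ i * (bet θ * cth θ * κ i ^ (2 * θ) - 2 * (δ ^ θ / θ)
      - 2 * (κ i * κ i * L ^ (θ - 1) / (1 - θ))) ≤ ∑ i, κ i * ∫ ε in δ..L, ∫ t in (-1 : ℝ)..1,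
        rpowIntegrand₀₁ θ ε (κ i * κ i * (1 - t * t)) :=
    Finset.sum_le_sum fun i _ => mul_le_mul_of_nonneg_left (scal4 hθ (hκ i) hδ hL) (hκ i).le
  have sE : ∑ i, κ i * (bet θ * cth θ * κ i ^ (2 * θ) - 2 * (δ ^ θ / θ)
      - 2 * (κ i * κ i * L ^ (θ - 1) / (1 - θ))) = bet θ * (cth θ * ∑ i, κ i ^ (2 * θ + 1))
        - 2 * k / θ * δ ^ θ - (∑ i, 2 * (κ i * (κ i * κ i)) / (1 - θ)) * L ^ (θ - 1) := by
    simp only [k, Finset.mul_sum, Finset.sum_mul, Finset.sum_div, ← Finset.sum_sub_distrib]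
    refine Finset.sum_congr rfl fun i _ => ?_
    rw [Real.rpow_add (hκ i), Real.rpow_one]; ring
  rw [smul_eq_mul] at sC
  linarith

theorem calibB {θ a b : ℝ} (hθ : θ ∈ Ioo (0 : ℝ) 1) {K : Matrix n n ℂ} {X H : ℝ → Matrix n n ℂ}
    (hab : a ≤ b) (hK : K.PosDef) (hX : Continuous X) (hH : Continuous H)
    (hX0 : ∀ x, (X x).IsHermitian) (hup : ∀ x, (K - X x).PosSemidef)
    (hlo : ∀ x, (K + X x).PosSemidef) (hH0 : ∀ x, (H x).PosSemidef)
    (hd : ∀ x ∈ Ioo a b, HasDerivAt X (K * K - X x * X x - (1 + θ⁻¹) • H x) x)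
    (ha : X a = K) (hb' : X b = -K) :
    cth θ * rtr (cfc (fun t : ℝ => t ^ (2 * θ + 1)) K)
      ≤ θ⁻¹ * ∫ x in a..b, rtr (cfc (fun t : ℝ => t ^ (1 + θ)) (H x)) := by
  obtain ⟨U, κ, hU⟩ := exists_dec hK.1
  have hm : ∀ A B : Matrix n n ℂ, Uᴴ * (A * B) * U = Uᴴ * A * U * (Uᴴ * B * U) := fun A B => by
    simp only [Matrix.mul_assoc]; rw [← Matrix.mul_assoc U, hU.r, Matrix.one_mul]
  have h := calibB_diag hθ (κ := κ) (X := fun x => Uᴴ * X x * U) (H := fun x => Uᴴ * H x * U) hab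
    (hU.pd_iff.1 hK) (by fun_prop) (by fun_prop) (fun x => ⟨?_, ?_, ?_⟩)
    (fun x => (hH0 x).conjTranspose_mul_mul_same U) (fun x hx => ?_) (by rw [ha, hU.conj_eq])
    (by rw [hb', ← hU.conj_eq]; simp)
  · rw [(hU.cfc _).rtr_eq]
    refine h.trans (le_of_eq ?_)
    congr 2; ext x
    obtain ⟨V, η, hV⟩ := exists_dec (hH0 x).1
    rw [(hV.cfc _).rtr_eq, ((hV.conj hU.l hU.r).cfc _).rtr_eq]
  · exact Matrix.isHermitian_conjTranspose_mul_mul U (hX0 x)
  · rw [← hU.conj_eq, ← Matrix.sub_mul, ← Matrix.mul_sub]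
    exact (hup x).conjTranspose_mul_mul_same U
  · rw [← hU.conj_eq, ← Matrix.add_mul, ← Matrix.mul_add]
    exact (hlo x).conjTranspose_mul_mul_same U
  · refine (((hd x hx).const_mul Uᴴ).mul_const U).congr_deriv ?_
    rw [← hU.conj_eq, ← hm, ← hm]
    simp [Matrix.mul_sub, Matrix.sub_mul]

end Vale.Agent.P371
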