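import Mathlib

/-!
Definitions for the one-dimensional Lieb-Thirring constants with matrix potentials.
-/

namespace Vale.Agent.P371

open MeasureTheory Matrix
open scoped ComplexOrder ENNReal

/-- `tr (A ^ p)`, the power being taken by the functional calculus of the Hermitian matrix `A`. -/
noncomputable def trPow {m : ℕ} (p : ℝ) (A : Matrix (Fin m) (Fin m) ℂ) : ℝ :=
  (Matrix.trace (cfc (fun t : ℝ => t ^ p) A)).re

/-- A potential: measurable, Hermitian positive semidefinite values, `tr (W ^ p)` integrable. -/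
structure IsPotential {m : ℕ} (p : ℝ) (W : ℝ → Matrix (Fin m) (Fin m) ℂ) : Prop where
  meas : ∀ i j, Measurable fun x => W x i j
  psd : ∀ x, (W x).PosSemidef
  integrable : Integrable fun x => trPow p (W x)

/-- `ψ` lies in the Sobolev space `H¹(ℝ; ℂ^m)` (continuous representative) with weak
derivative `ψ'`: both are square integrable and `ψ` is a primitive of `ψ'`. -/
structure IsH1 {m : ℕ} (ψ ψ' : ℝ → Fin m → ℂ) : Prop where
  memLp : ∀ i, MemLp (fun x => ψ x i) 2 volume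
  memLp' : ∀ i, MemLp (fun x => ψ' x i) 2 volume
  ftc : ∀ i a b, ψ b i - ψ a i = ∫ x in a..b, ψ' x i

/-- `ψ` is in the domain of the operator `H_W` of the form
`∫ ‖ψ'‖² - ∫ ⟨ψ, W ψ⟩` on `H¹`, and `H_W ψ = lam ψ`. -/
def IsEigen {m : ℕ} (W : ℝ → Matrix (Fin m) (Fin m) ℂ) (lam : ℝ) (ψ : ℝ → Fin m → ℂ) : Prop :=
  ∃ ψ', IsH1 ψ ψ' ∧ ∀ φ φ', IsH1 φ φ' →
    (∫ x, star (φ' x) ⬝ᵥ ψ' x) - (∫ x, star (φ x) ⬝ᵥ (W x *ᵥ ψ x))
      = (lam : ℂ) * ∫ x, star (φ x) ⬝ᵥ ψ x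

/-- A finite `L²`-orthonormal family of eigenfunctions of `H_W` with negative eigenvalues. -/
structure IsNegFamily {m N : ℕ} (W : ℝ → Matrix (Fin m) (Fin m) ℂ) (lam : Fin N → ℝ)
    (ψ : Fin N → ℝ → Fin m → ℂ) : Prop where
  neg : ∀ j, lam j < 0
  eigen : ∀ j, IsEigen W (lam j) (ψ j)
  orth : ∀ j k, (∫ x, star (ψ j x) ⬝ᵥ ψ k x) = if j = k then 1 else 0

/-- `Tr (H_W)_-^γ`: the sum of `|λ_j|^γ` over the negative eigenvalues with multiplicity, that is
the supremum of the sums over finite orthonormal families of eigenfunctions. -/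
noncomputable def rieszMean {m : ℕ} (γ : ℝ) (W : ℝ → Matrix (Fin m) (Fin m) ℂ) : ℝ≥0∞ :=
  ⨆ (N : ℕ) (lam : Fin N → ℝ) (ψ : Fin N → ℝ → Fin m → ℂ) (_ : IsNegFamily W lam ψ),
    ENNReal.ofReal (∑ j, |lam j| ^ γ)

/-- The Lieb-Thirring constant `L_γ(m)`. -/
noncomputable def ltConst (γ : ℝ) (m : ℕ) : ℝ≥0∞ :=
  ⨆ (W : ℝ → Matrix (Fin m) (Fin m) ℂ) (_ : IsPotential (γ + 1 / 2) W)
    (_ : ¬ W =ᵐ[volume] 0),
    rieszMean γ W / ENNReal.ofReal (∫ x, trPow (γ + 1 / 2) (W x))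

/-- The semiclassical constant. -/
noncomputable def clConst (γ : ℝ) : ℝ :=
  Real.Gamma (γ + 1) / (2 * Real.sqrt Real.pi * Real.Gamma (γ + 3 / 2))

/-- The value of the one-bound-state constant. -/
noncomputable def oneConst (γ : ℝ) : ℝ :=
  2 * ((γ - 1 / 2) / (γ + 1 / 2)) ^ (γ - 1 / 2) * clConst γ

end Vale.Agent.P371
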