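import Vale.Agent.P371.Defs

/-!
The one-bound-state constant.
-/

namespace Vale.Agent.P371

open MeasureTheory
open scoped ENNReal

/-- The one-bound-state constant: scalar potentials, one negative eigenvalue in the numerator
(the supremum over single eigenvalues is attained at the lowest one). -/
noncomputable def oneBound (γ : ℝ) : ℝ≥0∞ :=
  ⨆ (W : ℝ → Matrix (Fin 1) (Fin 1) ℂ) (_ : IsPotential (γ + 1 / 2) W)
    (_ : ¬ W =ᵐ[volume] 0) (lam : ℝ) (ψ : ℝ → Fin 1 → ℂ)
    (_ : IsNegFamily W (fun _ : Fin 1 => lam) (fun _ => ψ)),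
    ENNReal.ofReal (|lam| ^ γ) / ENNReal.ofReal (∫ x, trPow (γ + 1 / 2) (W x))

end Vale.Agent.P371
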