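import Vale.Agent.P371.Mat

/-!
Derivatives of matrix valued paths.
-/

namespace Vale.Agent.P371

open Matrix
open scoped ComplexOrder Matrix.Norms.L2Operator Topology

variable {n : Type} [Fintype n] [DecidableEq n]

/-- The real trace as a real linear map. -/
noncomputable def rtrL : Matrix n n ℂ →ₗ[ℝ] ℝ where
  toFun := rtr
  map_add' := rtr_add
  map_smul' := rtr_smul

theorem hasDerivAt_lin {E : Type} [NormedAddCommGroup E] [NormedSpace ℝ E]
    (L : Matrix n n ℂ →ₗ[ℝ] E) {A : ℝ → Matrix n n ℂ} {A' : Matrix n n ℂ} {x : ℝ}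
    (h : HasDerivAt A A' x) : HasDerivAt (fun y => L (A y)) (L A') x :=
  L.toContinuousLinearMap.hasFDerivAt.comp_hasDerivAt x h

theorem hasDerivAt_rtr {A : ℝ → Matrix n n ℂ} {A' : Matrix n n ℂ} {x : ℝ}
    (h : HasDerivAt A A' x) : HasDerivAt (fun y => rtr (A y)) (rtr A') x :=
  hasDerivAt_lin rtrL h

omit [DecidableEq n] in
@[fun_prop]
theorem continuous_rtr {X : Type} [TopologicalSpace X] {A : X → Matrix n n ℂ} (h : Continuous A) :
    Continuous fun y => rtr (A y) := by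
  unfold rtr
  exact Complex.continuous_re.comp h.matrix_trace

theorem hasDerivAt_minv {A : ℝ → Matrix n n ℂ} {A' : Matrix n n ℂ} {x : ℝ}
    (h : HasDerivAt A A' x) (hu : IsUnit (A x)) :
    HasDerivAt (fun y => (A y)⁻¹) (-((A x)⁻¹ * A' * (A x)⁻¹)) x := by
  obtain ⟨u, hu⟩ := hu
  have h1 := (hasFDerivAt_ringInverse (𝕜 := ℝ) u)
  rw [hu] at h1
  have h2 := h1.comp_hasDerivAt x h
  simp only [Matrix.nonsing_inv_eq_ringInverse]
  refine HasDerivAt.congr_deriv h2 ?_
  rw [← hu]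
  simp

theorem continuous_minv {X : Type} [TopologicalSpace X] {A : X → Matrix n n ℂ} (h : Continuous A)
    (hu : ∀ x, IsUnit (A x)) : Continuous fun y => (A y)⁻¹ := by
  refine continuous_iff_continuousAt.2 fun x => ?_
  refine ContinuousAt.comp (g := fun B : Matrix n n ℂ => B⁻¹) ?_ h.continuousAt
  refine continuousAt_matrix_inv _ ?_
  have : (A x).det ≠ 0 := ((Matrix.isUnit_iff_isUnit_det _).1 (hu x)).ne_zero
  rw [Ring.inverse_eq_inv']
  exact continuousAt_inv₀ this

theorem hasDerivAt_det_one {A : ℝ → Matrix n n ℂ} {A' : Matrix n n ℂ} {x : ℝ}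
    (h : HasDerivAt A A' x) (h1 : A x = 1) : HasDerivAt (fun y => (A y).det) A'.trace x := by
  have he : ∀ i j, HasDerivAt (fun y => A y i j) (A' i j) x := fun i j =>
    hasDerivAt_lin (Matrix.entryLinearMap ℝ ℂ i j) h
  have h2 : HasDerivAt (fun y => ∑ σ : Equiv.Perm n, ((Equiv.Perm.sign σ : ℤ) : ℂ) * ∏ i, A y (σ i) i)
      (∑ σ : Equiv.Perm n, ((Equiv.Perm.sign σ : ℤ) : ℂ) *
        ∑ i, (∏ j ∈ Finset.univ.erase i, A x (σ j) j) • A' (σ i) i) x :=
    HasDerivAt.fun_sum fun σ _ =>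
      (HasDerivAt.fun_finset_prod (fun i _ => he (σ i) i)).const_mul _
  simp only [Matrix.det_apply']
  convert h2 using 1
  rw [Finset.sum_eq_single 1]
  · simp [h1, Matrix.trace]
  · intro σ _ hσ
    refine mul_eq_zero_of_right _ (Finset.sum_eq_zero fun i _ => ?_)
    have : ∃ j, j ≠ i ∧ σ j ≠ j := by
      by_contra hc
      push Not at hc
      apply hσ
      ext j
      by_cases hj : j = i
      · subst hj
        by_contra h3
        have h4 : σ j ≠ j := h3
        exact h4 (σ.injective (hc _ h4))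
      · exact hc j hj
    obtain ⟨j, hj, hj'⟩ := this
    rw [Finset.prod_eq_zero (Finset.mem_erase.2 ⟨hj, Finset.mem_univ j⟩), zero_smul]
    rw [h1, Matrix.one_apply_ne hj']
  · simp

/-- Logarithm of the modulus of the determinant. -/
noncomputable def ld (A : Matrix n n ℂ) : ℝ := Real.log ‖A.det‖

theorem ld_mul {A B : Matrix n n ℂ} (hA : IsUnit A) (hB : IsUnit B) :
    ld (A * B) = ld A + ld B := by
  have h1 : A.det ≠ 0 := ((Matrix.isUnit_iff_isUnit_det _).1 hA).ne_zero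
  have h2 : B.det ≠ 0 := ((Matrix.isUnit_iff_isUnit_det _).1 hB).ne_zero
  rw [ld, ld, ld, det_mul, norm_mul, Real.log_mul (by simpa) (by simpa)]

theorem ld_conjTranspose (A : Matrix n n ℂ) : ld Aᴴ = ld A := by
  simp [ld, det_conjTranspose]

theorem Dec.ld_eq {A U : Matrix n n ℂ} {d : n → ℝ} (h : Dec A U d) (hd : ∀ i, 0 < d i) :
    ld A = ∑ i, Real.log (d i) := by
  rw [ld, h.det_eq, Complex.norm_real, Real.norm_eq_abs, Real.log_abs,
    Real.log_prod fun i _ => (hd i).ne']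

theorem hasDerivAt_ld {A : ℝ → Matrix n n ℂ} {A' : Matrix n n ℂ} {x : ℝ}
    (h : HasDerivAt A A' x) (hu : IsUnit (A x)) :
    HasDerivAt (fun y => ld (A y)) (rtr ((A x)⁻¹ * A')) x := by
  have hd := (Matrix.isUnit_iff_isUnit_det _).1 hu
  have h0 : (A x)⁻¹ * A x = 1 := Matrix.nonsing_inv_mul _ hd
  have h1 := hasDerivAt_det_one (h.const_mul (A x)⁻¹) h0
  have h2 := h1.clog_real (by simp [h0])
  simp only [h0, det_one, div_one] at h2
  have h3 := Complex.reCLM.hasFDerivAt.comp_hasDerivAt x h2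
  have h4 := h3.const_add (ld (A x))
  refine h4.congr_of_eventuallyEq ?_
  have h5 : ∀ᶠ y in 𝓝 x, ((A x)⁻¹ * A y).det ≠ 0 :=
    h1.continuousAt.eventually_ne (by simp [h0])
  filter_upwards [h5] with y hy
  have h6 : IsUnit ((A x)⁻¹ * A y) := (Matrix.isUnit_iff_isUnit_det _).2 hy.isUnit
  have h7 : A y = A x * ((A x)⁻¹ * A y) := by
    rw [← Matrix.mul_assoc, Matrix.mul_nonsing_inv _ hd, Matrix.one_mul]
  simp only [Function.comp, Complex.reCLM_apply, Complex.log_re]
  conv_lhs => rw [h7, ld_mul hu h6]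
  rfl

theorem continuous_cfc {X : Type} [TopologicalSpace X] {A : X → Matrix n n ℂ} (h : Continuous A)
    (hA : ∀ x, (A x).IsHermitian) {f : ℝ → ℝ} (hf : Continuous f) :
    Continuous fun x => cfc f (A x) :=
  Continuous.cfc_of_mem_nhdsSet (s := Set.univ) f Filter.univ_mem h (fun x => hA x) hf.continuousOn

end Vale.Agent.P371
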