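import Mathlib

/-!
Matrix toolkit: real trace, unitary diagonalisations, doubly stochastic trace inequalities.
-/

namespace Vale.Agent.P371

open Matrix
open scoped ComplexOrder

variable {n m k : Type} [Fintype n] [DecidableEq n] [Fintype m] [DecidableEq m]
  [Fintype k] [DecidableEq k]

/-- Real part of the trace. -/
noncomputable def rtr (A : Matrix n n ℂ) : ℝ := A.trace.re

/-- Real diagonal matrix. -/
noncomputable def dg (d : n → ℝ) : Matrix n n ℂ := diagonal fun i => (d i : ℂ)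

omit [DecidableEq n] in
theorem rtr_add (A B : Matrix n n ℂ) : rtr (A + B) = rtr A + rtr B := by simp [rtr]
omit [DecidableEq n] in
theorem rtr_sub (A B : Matrix n n ℂ) : rtr (A - B) = rtr A - rtr B := by simp [rtr]
omit [DecidableEq n] in
theorem rtr_neg (A : Matrix n n ℂ) : rtr (-A) = -rtr A := by simp [rtr]
omit [DecidableEq n] in
theorem rtr_smul (r : ℝ) (A : Matrix n n ℂ) : rtr (r • A) = r * rtr A := by simp [rtr]
omit [DecidableEq n] in
theorem rtr_zero : rtr (0 : Matrix n n ℂ) = 0 := by simp [rtr]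
theorem rtr_one : rtr (1 : Matrix n n ℂ) = Fintype.card n := by simp [rtr]
omit [DecidableEq n] [DecidableEq m] in
theorem rtr_comm (A : Matrix n m ℂ) (B : Matrix m n ℂ) : rtr (A * B) = rtr (B * A) := by
  simp [rtr, Matrix.trace_mul_comm A B]
omit [DecidableEq n] in
theorem rtr_conjTranspose (A : Matrix n n ℂ) : rtr Aᴴ = rtr A := by
  simp [rtr, Matrix.trace_conjTranspose]
theorem rtr_dg (d : n → ℝ) : rtr (dg d) = ∑ i, d i := by simp [rtr, dg]
omit [DecidableEq n] in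
theorem rtr_eq_sum (A : Matrix n n ℂ) : rtr A = ∑ i, (A i i).re := by simp [rtr, Matrix.trace]
omit [DecidableEq n] in
theorem rtr_nonneg {A : Matrix n n ℂ} (h : A.PosSemidef) : 0 ≤ rtr A :=
  (Complex.nonneg_iff.mp h.trace_nonneg).1

omit [DecidableEq n] [DecidableEq m] in
theorem rtr_star_mul (A : Matrix m n ℂ) : rtr (Aᴴ * A) = ∑ j, ∑ i, ‖A i j‖ ^ 2 := by
  simp only [rtr_eq_sum, Matrix.mul_apply, Complex.re_sum, conjTranspose_apply]
  refine Finset.sum_congr rfl fun j _ => Finset.sum_congr rfl fun i _ => ?_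
  rw [← Complex.normSq_eq_norm_sq, Complex.normSq_apply]; simp

omit [Fintype n] in
theorem dg_herm (d : n → ℝ) : (dg d)ᴴ = dg d := by
  simp [dg, diagonal_conjTranspose, Pi.star_def]
theorem dg_mul (d e : n → ℝ) : dg d * dg e = dg (fun i => d i * e i) := by
  simp [dg, diagonal_mul_diagonal]
omit [Fintype n] in
theorem dg_add (d e : n → ℝ) : dg d + dg e = dg (fun i => d i + e i) := by
  simp [dg, diagonal_add]
omit [Fintype n] in
theorem dg_sub (d e : n → ℝ) : dg d - dg e = dg (fun i => d i - e i) := by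
  simp [dg, diagonal_sub]
omit [Fintype n] in
theorem dg_smul (r : ℝ) (d : n → ℝ) : r • dg d = dg (fun i => r * d i) := by
  ext i j; by_cases h : i = j <;> simp [dg, h, diagonal_apply]
omit [Fintype n] in
theorem dg_const (r : ℝ) : dg (fun _ : n => r) = r • (1 : Matrix n n ℂ) := by
  ext i j; by_cases h : i = j <;> simp [dg, h, diagonal_apply, one_apply]
omit [Fintype n] in
theorem dg_one : dg (fun _ : n => 1) = (1 : Matrix n n ℂ) := by rw [dg_const, one_smul]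
omit [Fintype n] in
theorem dg_psd {d : n → ℝ} : (dg d).PosSemidef ↔ ∀ i, 0 ≤ d i := by
  simp [dg, posSemidef_diagonal_iff]
omit [Fintype n] in
theorem dg_pd {d : n → ℝ} : (dg d).PosDef ↔ ∀ i, 0 < d i := by
  simp [dg, posDef_diagonal_iff]
theorem dg_det (d : n → ℝ) : (dg d).det = ((∏ i, d i : ℝ) : ℂ) := by simp [dg]

theorem dg_inter (M : Matrix m n ℂ) (d : m → ℝ) (e : n → ℝ) (h : dg d * M = M * dg e)
    (f : ℝ → ℝ) : dg (fun i => f (d i)) * M = M * dg (fun i => f (e i)) := by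
  ext i j
  have h1 := congrFun (congrFun h i) j
  simp only [dg, diagonal_mul, mul_diagonal] at h1 ⊢
  by_cases h0 : M i j = 0
  · simp [h0]
  · have : (d i : ℂ) = e j := by
      rw [mul_comm] at h1; exact mul_left_cancel₀ h0 h1
    have : d i = e j := by exact_mod_cast this
    rw [this, mul_comm]

/-- `A = U diag(d) U*` with `U` unitary. -/
structure Dec (A U : Matrix n n ℂ) (d : n → ℝ) : Prop where
  l : Uᴴ * U = 1
  r : U * Uᴴ = 1
  eq : A = U * dg d * Uᴴ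

theorem Dec.ofDg (d : n → ℝ) : Dec (dg d) 1 d := ⟨by simp, by simp, by simp⟩

theorem exists_dec_cfc {A : Matrix n n ℂ} (hA : A.IsHermitian) :
    ∃ U d, Dec A U d ∧ ∀ f : ℝ → ℝ, cfc f A = U * dg (fun i => f (d i)) * Uᴴ := by
  refine ⟨hA.eigenvectorUnitary, hA.eigenvalues, ⟨?_, ?_, ?_⟩, fun f => ?_⟩
  · exact Unitary.coe_star_mul_self hA.eigenvectorUnitary
  · exact Unitary.coe_mul_star_self hA.eigenvectorUnitary
  · conv_lhs => rw [hA.spectral_theorem]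
    rfl
  · rw [hA.cfc_eq]; rfl

theorem exists_dec {A : Matrix n n ℂ} (hA : A.IsHermitian) : ∃ U d, Dec A U d := by
  obtain ⟨U, d, h, -⟩ := exists_dec_cfc hA
  exact ⟨U, d, h⟩

namespace Dec
variable {A B U V : Matrix n n ℂ} {d e : n → ℝ}

theorem herm (h : Dec A U d) : A.IsHermitian := by
  rw [h.eq, IsHermitian]; simp [dg_herm, Matrix.mul_assoc]

theorem mul_U (h : Dec A U d) : A * U = U * dg d := by
  rw [h.eq, Matrix.mul_assoc, h.l, Matrix.mul_one]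

theorem conj_eq (h : Dec A U d) : Uᴴ * A * U = dg d := by
  rw [Matrix.mul_assoc, h.mul_U, ← Matrix.mul_assoc, h.l, Matrix.one_mul]

theorem rtr_eq (h : Dec A U d) : rtr A = ∑ i, d i := by
  rw [h.eq, rtr_comm, ← Matrix.mul_assoc, h.l, Matrix.one_mul, rtr_dg]

theorem det_eq (h : Dec A U d) : A.det = ((∏ i, d i : ℝ) : ℂ) := by
  rw [h.eq, det_mul, det_mul, mul_comm, ← mul_assoc, ← det_mul, h.l, det_one, one_mul, dg_det]

theorem psd_iff (h : Dec A U d) : A.PosSemidef ↔ ∀ i, 0 ≤ d i := by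
  rw [← dg_psd]
  exact ⟨fun h1 => h.conj_eq ▸ h1.conjTranspose_mul_mul_same U,
    fun h1 => h.eq ▸ h1.mul_mul_conjTranspose_same U⟩

theorem unit (h : Dec A U d) : IsUnit U := by
  rw [Matrix.isUnit_iff_isUnit_det]
  exact IsUnit.of_mul_eq_one Uᴴ.det (by rw [← det_mul, h.r, det_one])

theorem pd_iff (h : Dec A U d) : A.PosDef ↔ ∀ i, 0 < d i := by
  rw [← dg_pd, h.eq]
  exact h.unit.posDef_star_right_conjugate_iff

theorem congr (h : Dec A U d) (hd : ∀ i, d i = e i) : Dec A U e := by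
  rwa [← funext hd]

theorem mul (h : Dec A U d) (h' : Dec B U e) : Dec (A * B) U (fun i => d i * e i) :=
  ⟨h.l, h.r, by
    rw [h'.eq, ← Matrix.mul_assoc, ← Matrix.mul_assoc, h.mul_U, Matrix.mul_assoc U, dg_mul]⟩

theorem add (h : Dec A U d) (h' : Dec B U e) : Dec (A + B) U (fun i => d i + e i) :=
  ⟨h.l, h.r, by rw [← dg_add, Matrix.mul_add, Matrix.add_mul, ← h.eq, ← h'.eq]⟩

theorem sub (h : Dec A U d) (h' : Dec B U e) : Dec (A - B) U (fun i => d i - e i) :=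
  ⟨h.l, h.r, by rw [← dg_sub, Matrix.mul_sub, Matrix.sub_mul, ← h.eq, ← h'.eq]⟩

theorem smul (h : Dec A U d) (r : ℝ) : Dec (r • A) U (fun i => r * d i) :=
  ⟨h.l, h.r, by rw [← dg_smul, Matrix.mul_smul, Matrix.smul_mul, ← h.eq]⟩

theorem const (h : Dec A U d) (r : ℝ) : Dec (r • (1 : Matrix n n ℂ)) U (fun _ => r) :=
  ⟨h.l, h.r, by rw [dg_const, Matrix.mul_smul, Matrix.smul_mul, Matrix.mul_one, h.r]⟩

theorem one (h : Dec A U d) : Dec (1 : Matrix n n ℂ) U (fun _ => 1) := by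
  simpa using h.const 1

theorem other (h : Dec A U d) (e : n → ℝ) : Dec (U * dg e * Uᴴ) U e := ⟨h.l, h.r, rfl⟩

theorem unique (h : Dec A U d) (h' : Dec B U e) (hd : ∀ i, d i = e i) : A = B := by
  rw [h.eq, h'.eq, funext hd]

theorem conj (h : Dec A U d) (hl : Vᴴ * V = 1) (hr : V * Vᴴ = 1) :
    Dec (Vᴴ * A * V) (Vᴴ * U) d := by
  refine ⟨?_, ?_, ?_⟩
  · rw [conjTranspose_mul, conjTranspose_conjTranspose, Matrix.mul_assoc, ← Matrix.mul_assoc V,
      hr, Matrix.one_mul, h.l]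
  · rw [conjTranspose_mul, conjTranspose_conjTranspose, Matrix.mul_assoc, ← Matrix.mul_assoc U,
      h.r, Matrix.one_mul, hl]
  · rw [h.eq]; simp [Matrix.mul_assoc]

end Dec

theorem cfc_mul_of_inter {A : Matrix m m ℂ} (hA : A.IsHermitian) (Z : Matrix m n ℂ) (e : n → ℝ)
    (h : A * Z = Z * dg e) (f : ℝ → ℝ) : cfc f A * Z = Z * dg (fun i => f (e i)) := by
  obtain ⟨U, d, hd, hf⟩ := exists_dec_cfc hA
  have h1 : dg d * (Uᴴ * Z) = (Uᴴ * Z) * dg e := by
    rw [Matrix.mul_assoc, ← h, ← hd.conj_eq]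
    simp only [Matrix.mul_assoc]
    rw [← Matrix.mul_assoc U, hd.r, Matrix.one_mul]
  rw [hf, Matrix.mul_assoc, Matrix.mul_assoc, dg_inter _ _ _ h1, ← Matrix.mul_assoc,
    ← Matrix.mul_assoc, hd.r, Matrix.one_mul]

theorem Dec.cfc {A U : Matrix n n ℂ} {d : n → ℝ} (h : Dec A U d) (f : ℝ → ℝ) :
    Dec (cfc f A) U (fun i => f (d i)) :=
  ⟨h.l, h.r, by rw [← cfc_mul_of_inter h.herm U d h.mul_U, Matrix.mul_assoc, h.r, Matrix.mul_one]⟩

theorem cfc_inter {A : Matrix m m ℂ} {B : Matrix n n ℂ} (hA : A.IsHermitian) (hB : B.IsHermitian)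
    (Z : Matrix m n ℂ) (h : A * Z = Z * B) (f : ℝ → ℝ) : cfc f A * Z = Z * cfc f B := by
  obtain ⟨V, e, he⟩ := exists_dec hB
  have h1 : A * (Z * V) = (Z * V) * dg e := by
    rw [← Matrix.mul_assoc, h, Matrix.mul_assoc, he.mul_U, Matrix.mul_assoc]
  have h2 := cfc_mul_of_inter hA _ _ h1 f
  rw [(he.cfc f).eq, ← Matrix.mul_assoc, ← Matrix.mul_assoc, ← h2, Matrix.mul_assoc,
    Matrix.mul_assoc, he.r, Matrix.mul_one]

theorem cfc_herm {A : Matrix n n ℂ} (hA : A.IsHermitian) (f : ℝ → ℝ) : (cfc f A).IsHermitian := by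
  obtain ⟨V, e, he⟩ := exists_dec hA
  exact (he.cfc f).herm

/-- The basic doubly stochastic formula. -/
theorem Dec.ds {A U : Matrix m m ℂ} {B V : Matrix n n ℂ} {a : m → ℝ} {b : n → ℝ}
    (hA : Dec A U a) (hB : Dec B V b) (Z : Matrix m n ℂ) :
    rtr (Zᴴ * A * Z * B) = ∑ l, ∑ i, ‖(Uᴴ * Z * V) i l‖ ^ 2 * (a i * b l) := by
  have : rtr (Zᴴ * A * Z * B) = rtr ((Uᴴ * Z * V)ᴴ * dg a * (Uᴴ * Z * V) * dg b) := by
    rw [hA.eq, hB.eq, ← Matrix.mul_assoc _ _ Vᴴ, rtr_comm _ Vᴴ]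
    simp [Matrix.mul_assoc]
  rw [this, rtr_eq_sum]
  refine Finset.sum_congr rfl fun l _ => ?_
  generalize Uᴴ * Z * V = Y
  rw [dg, dg, mul_diagonal, Matrix.mul_apply]
  simp only [mul_diagonal, conjTranspose_apply, Finset.sum_mul, Complex.re_sum]
  refine Finset.sum_congr rfl fun i _ => ?_
  rw [← Complex.normSq_eq_norm_sq, Complex.normSq_apply]; simp; ring

theorem Dec.ds_le {A₁ A₂ U : Matrix m m ℂ} {B₁ B₂ V : Matrix n n ℂ} {a₁ a₂ : m → ℝ}
    {b₁ b₂ : n → ℝ} (h₁ : Dec A₁ U a₁) (h₂ : Dec A₂ U a₂) (k₁ : Dec B₁ V b₁) (k₂ : Dec B₂ V b₂)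
    (Z : Matrix m n ℂ) (h : ∀ i l, a₁ i * b₁ l ≤ a₂ i + b₂ l) :
    rtr (Zᴴ * A₁ * Z * B₁) ≤ rtr (Zᴴ * A₂ * Z) + rtr (Zᴴ * Z * B₂) := by
  have e1 := h₂.ds k₁.one Z
  have e2 := h₁.one.ds k₂ Z
  rw [Matrix.mul_one] at e1 e2
  rw [h₁.ds k₁, e1, e2, ← Finset.sum_add_distrib]
  refine Finset.sum_le_sum fun l _ => ?_
  rw [← Finset.sum_add_distrib]
  refine Finset.sum_le_sum fun i _ => ?_
  rw [← mul_add]
  exact mul_le_mul_of_nonneg_left (by simpa using h i l) (by positivity)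

theorem Dec.le_ds {A₁ A₂ U : Matrix m m ℂ} {B₁ B₂ V : Matrix n n ℂ} {a₁ a₂ : m → ℝ}
    {b₁ b₂ : n → ℝ} (h₁ : Dec A₁ U a₁) (h₂ : Dec A₂ U a₂) (k₁ : Dec B₁ V b₁) (k₂ : Dec B₂ V b₂)
    (Z : Matrix m n ℂ) (h : ∀ i l, a₂ i + b₂ l ≤ a₁ i * b₁ l) :
    rtr (Zᴴ * A₂ * Z) + rtr (Zᴴ * Z * B₂) ≤ rtr (Zᴴ * A₁ * Z * B₁) := by
  have := (h₁.smul (-1)).ds_le (h₂.smul (-1)) k₁ (k₂.smul (-1)) Z
    (fun i l => by have := h i l; linarith)
  simp only [neg_smul, one_smul, Matrix.mul_neg, Matrix.neg_mul, rtr_neg] at this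
  linarith

/-- Trace of a product of positive semidefinite matrices. -/
theorem rtr_mul_nonneg {A B : Matrix n n ℂ} (hA : A.PosSemidef) (hB : B.PosSemidef) :
    0 ≤ rtr (A * B) := by
  obtain ⟨U, a, ha⟩ := exists_dec hA.1
  obtain ⟨V, b, hb⟩ := exists_dec hB.1
  have := ha.ds hb 1
  simp only [conjTranspose_one, Matrix.one_mul, Matrix.mul_one] at this
  rw [this]
  have h1 := ha.psd_iff.1 hA
  have h2 := hb.psd_iff.1 hB
  exact Finset.sum_nonneg fun l _ => Finset.sum_nonneg fun i _ =>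
    mul_nonneg (by positivity) (mul_nonneg (h1 i) (h2 l))

omit [DecidableEq n] [DecidableEq m] in
theorem two_rtr_le (A B : Matrix m n ℂ) :
    2 * rtr (Aᴴ * B) ≤ rtr (Aᴴ * A) + rtr (Bᴴ * B) := by
  have h := rtr_nonneg (posSemidef_conjTranspose_mul_self (A - B))
  have h2 : rtr (Bᴴ * A) = rtr (Aᴴ * B) := by
    rw [← rtr_conjTranspose]; simp
  simp only [conjTranspose_sub, Matrix.sub_mul, Matrix.mul_sub, rtr_sub] at h
  linarith

omit [DecidableEq n] in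
theorem rtr_sq_le (A : Matrix n n ℂ) : rtr (A * A) ≤ rtr (A * Aᴴ) := by
  have h := two_rtr_le Aᴴ A
  rw [conjTranspose_conjTranspose, rtr_comm Aᴴ A] at h
  linarith

end Vale.Agent.P371
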